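import Vale.Agent.P252.R.Spec
import Vale.Agent.P252.H747.Sections

/-!
# Caps of approximants of wedges

Common lemma: a cap `{ν ≤ s}`, `ν = α·x + β z` with `α_i ≥ 1` (`i < k`), `α_j = 0` (`j ≥ k`),
`β ≥ 1`, of a set satisfying the conclusion of `Stmt_approxBox` is bounded, and for complete
graphs compact.
-/

open scoped ContDiff Topology
open Filter MeasureTheory

namespace Vale.Agent.P252.H889
open Vale.Agent.P252.R

/-- The covector with entries `1` for `i < k`, else `0`. -/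
noncomputable def armv {n : ℕ} (k : ℕ) : Fin n → ℝ := fun i => if i.val < k then 1 else 0

theorem close_mono {V : Type*} [SeminormedAddCommGroup V] {R R' ε ε' : ℝ} {K K' : Set V}
    (hR : R' ≤ R) (hε : ε ≤ ε') (h : Close R ε K K') : Close R' ε' K K' := by
  constructor
  · intro p hp hn
    obtain ⟨q, hq, h1⟩ := h.1 p hp (hn.trans hR)
    exact ⟨q, hq, h1.trans hε⟩
  · intro p hp hn
    obtain ⟨q, hq, h1⟩ := h.2 p hp (hn.trans hR)
    exact ⟨q, hq, h1.trans hε⟩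

/-- The conclusion of `Stmt_approxBox` for the set `E`. -/
def BoxAt {n : ℕ} (k : ℕ) (T e : ℝ) (E : Set (En n × ℝ)) : Prop :=
  ∀ p ∈ E, p.2 ≤ T → (∀ i : Fin n, i.val < k → p.1 i ≤ T) →
      -e ≤ p.2 ∧ (∀ i : Fin n, i.val < k → -e ≤ p.1 i) ∧
      ∀ j : Fin n, k ≤ j.val → |p.1 j| ≤ T + 1

/-- Upper bounds of the arm coordinates on a cap. -/
theorem arm_le {n k : ℕ} {T e A s β : ℝ} {α : Fin n → ℝ} {E : Set (En n × ℝ)}
    (hE : Convex ℝ E) (hbox : BoxAt k T e E) (he : 0 ≤ e) (hT : 1 < T)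
    (hα1 : ∀ i : Fin n, i.val < k → 1 ≤ α i) (hα0 : ∀ i : Fin n, k ≤ i.val → α i = 0)
    (hβ : 1 ≤ β) (hA : e * (∑ i, α i + β) ≤ A) (hTs : s + A + 1 < T)
    {p₀ : En n × ℝ} (hp₀ : p₀ ∈ E) (h0z : 0 ≤ p₀.2) (h0z' : p₀.2 ≤ 1)
    (h0x : ∀ i : Fin n, i.val < k → 0 ≤ p₀.1 i) (h0x' : ∀ i : Fin n, i.val < k → p₀.1 i ≤ 1)
    (h0 : ∑ i, α i * p₀.1 i + β * p₀.2 ≤ s) :
    ∀ p ∈ E, ∑ i, α i * p.1 i + β * p.2 ≤ s →
      p.2 ≤ T ∧ ∀ i : Fin n, i.val < k → p.1 i ≤ T := by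
  intro p hp hps
  by_contra hcon
  let c : (En n × ℝ) → Option (Fin n) → ℝ := fun q a =>
    match a with
    | none => q.2
    | some i => if i.val < k then q.1 i else 0
  obtain ⟨a, ha⟩ := Finite.exists_max (c p)
  have hcz : ∀ q : En n × ℝ, c q none = q.2 := fun q => rfl
  have hcx : ∀ (q : En n × ℝ) (i : Fin n), i.val < k → c q (some i) = q.1 i :=
    fun q i hi => by simp only [c, if_pos hi]
  have hMT : T < c p a := by
    by_contra h
    push Not at h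
    apply hcon
    refine ⟨?_, fun i hi => ?_⟩
    · have := ha none
      rw [hcz] at this
      exact this.trans h
    · have := ha (some i)
      rw [hcx _ _ hi] at this
      exact this.trans h
  set M := c p a with hM
  have hM1 : 0 < M - 1 := by linarith
  set l := (T - 1) / (M - 1) with hl
  have hl0 : 0 < l := div_pos (by linarith) hM1
  have hl1 : l < 1 := by rw [hl, div_lt_one hM1]; linarith
  have hlM : l * (M - 1) = T - 1 := by rw [hl]; field_simp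
  set q : En n × ℝ := (1 - l) • p₀ + l • p with hq
  have hqE : q ∈ E := hE hp₀ hp (by linarith) hl0.le (by ring)
  have hq2 : q.2 = (1 - l) * p₀.2 + l * p.2 := by simp [hq]
  have hq1 : ∀ i, q.1 i = (1 - l) * p₀.1 i + l * p.1 i := by intro i; simp [hq]
  have hz : q.2 ≤ T := by
    have h1 : p.2 ≤ M := by have := ha none; rwa [hcz] at this
    rw [hq2]
    nlinarith
  have hx : ∀ i : Fin n, i.val < k → q.1 i ≤ T := by
    intro i hi
    have h1 : p.1 i ≤ M := by have := ha (some i); rwa [hcx _ _ hi] at this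
    have h2 := h0x' i hi
    rw [hq1]
    nlinarith
  obtain ⟨bz, bx, -⟩ := hbox q hqE hz hx
  -- the value of ν at q
  have hνq : ∑ i, α i * q.1 i + β * q.2 ≤ s := by
    have : ∑ i, α i * q.1 i + β * q.2 =
        (1 - l) * (∑ i, α i * p₀.1 i + β * p₀.2) + l * (∑ i, α i * p.1 i + β * p.2) := by
      simp only [hq1, hq2, mul_add, Finset.mul_sum, Finset.sum_add_distrib]
      have e1 : ∀ i, α i * ((1 - l) * p₀.1 i) = (1 - l) * (α i * p₀.1 i) := fun i => by ring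
      have e2 : ∀ i, α i * (l * p.1 i) = l * (α i * p.1 i) := fun i => by ring
      simp only [e1, e2]
      ring
    rw [this]
    nlinarith
  have hterm : ∀ i : Fin n, 0 ≤ α i * (q.1 i + e) := by
    intro i
    by_cases hi : i.val < k
    · exact mul_nonneg (by linarith [hα1 i hi]) (by linarith [bx i hi])
    · rw [hα0 i (not_lt.mp hi)]; simp
  have hbig : T - 1 ≤ ∑ i, α i * (q.1 i + e) + β * (q.2 + e) := by
    have hβt : 0 ≤ β * (q.2 + e) := mul_nonneg (by linarith) (by linarith)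
    rcases ha' : a with _ | i
    · have hMz : M = p.2 := by rw [hM, ha', hcz]
      have h1 : T - 1 ≤ q.2 := by
        rw [hq2, ← hMz]; nlinarith
      have h2 : T - 1 ≤ β * (q.2 + e) := by nlinarith
      have h3 : 0 ≤ ∑ i, α i * (q.1 i + e) := Finset.sum_nonneg fun i _ => hterm i
      linarith
    · have hik : i.val < k := by
        by_contra hik
        have : M = 0 := by rw [hM, ha']; simp only [c, if_neg hik]
        linarith
      have hMx : M = p.1 i := by rw [hM, ha', hcx _ _ hik]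
      have h1 : T - 1 ≤ q.1 i := by
        have := h0x i hik
        rw [hq1, ← hMx]; nlinarith
      have h2 : T - 1 ≤ α i * (q.1 i + e) := by
        have := hα1 i hik
        nlinarith
      have h3 : α i * (q.1 i + e) ≤ ∑ i, α i * (q.1 i + e) :=
        Finset.single_le_sum (f := fun i => α i * (q.1 i + e)) (fun i _ => hterm i)
          (Finset.mem_univ i)
      linarith
  have hexp : ∑ i, α i * (q.1 i + e) + β * (q.2 + e) =
      (∑ i, α i * q.1 i + β * q.2) + e * (∑ i, α i + β) := by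
    simp only [mul_add, Finset.sum_add_distrib, Finset.mul_sum]
    have : ∀ i, α i * e = e * α i := fun i => mul_comm _ _
    simp only [this]
    ring
  linarith

/-- All bounds on a cap. -/
theorem cap_bound {n k : ℕ} {T e A s β : ℝ} {α : Fin n → ℝ} {E : Set (En n × ℝ)}
    (hE : Convex ℝ E) (hbox : BoxAt k T e E) (he : 0 ≤ e) (hT : 1 < T)
    (hα1 : ∀ i : Fin n, i.val < k → 1 ≤ α i) (hα0 : ∀ i : Fin n, k ≤ i.val → α i = 0)
    (hβ : 1 ≤ β) (hA : e * (∑ i, α i + β) ≤ A) (hTs : s + A + 1 < T)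
    {p₀ : En n × ℝ} (hp₀ : p₀ ∈ E) (h0z : 0 ≤ p₀.2) (h0z' : p₀.2 ≤ 1)
    (h0x : ∀ i : Fin n, i.val < k → 0 ≤ p₀.1 i) (h0x' : ∀ i : Fin n, i.val < k → p₀.1 i ≤ 1)
    (h0 : ∑ i, α i * p₀.1 i + β * p₀.2 ≤ s) :
    ∀ p ∈ E, ∑ i, α i * p.1 i + β * p.2 ≤ s →
      (-e ≤ p.2 ∧ p.2 ≤ T) ∧ (∀ i : Fin n, i.val < k → -e ≤ p.1 i ∧ p.1 i ≤ T) ∧
      ∀ j : Fin n, k ≤ j.val → |p.1 j| ≤ T + 1 := by
  intro p hp hps
  obtain ⟨h1, h2⟩ := arm_le hE hbox he hT hα1 hα0 hβ hA hTs hp₀ h0z h0z' h0x h0x' h0 p hp hps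
  obtain ⟨h3, h4, h5⟩ := hbox p hp h1 h2
  exact ⟨⟨h3, h1⟩, fun i hi => ⟨h4 i hi, h2 i hi⟩, h5⟩

theorem norm_le_of_abs_le {n : ℕ} {x : En n} {M : ℝ} (h : ∀ i, |x i| ≤ M) : ‖x‖ ≤ n * M := by
  have h1 : ‖x‖ ≤ ∑ i, |x i| := by
    rw [EuclideanSpace.norm_eq]
    have h0 : 0 ≤ ∑ i, |x i| := Finset.sum_nonneg fun i _ => abs_nonneg _
    rw [← Real.sqrt_sq h0]
    apply Real.sqrt_le_sqrt
    have := Finset.sum_sq_le_sq_sum_of_nonneg (s := Finset.univ) (f := fun i : Fin n => |x i|)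
      (fun i _ => abs_nonneg _)
    simpa using this
  have h2 : ∑ i, |x i| ≤ ∑ _i : Fin n, M := Finset.sum_le_sum fun i _ => h i
  simp at h2
  linarith

theorem isClosed_nu {n : ℕ} {Ω : Set (En n)} {u : En n → ℝ} (hcl : IsClosed (epi Ω u))
    {α : Fin n → ℝ} {β γ t : ℝ} (hβ : 0 < β) :
    IsClosed {x | x ∈ Ω ∧ nu u α β γ x ≤ t} := by
  have hset : {x | x ∈ Ω ∧ nu u α β γ x ≤ t} =
      (fun x : En n => (x, (t - γ - ∑ i, α i * x i) / β)) ⁻¹' epi Ω u := by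
    ext x
    simp only [Set.mem_ofPred_eq, Set.mem_preimage, epi, nu, le_div_iff₀ hβ]
    constructor
    · rintro ⟨h1, h2⟩; exact ⟨h1, by linarith⟩
    · rintro ⟨h1, h2⟩; exact ⟨h1, by linarith⟩
  rw [hset]
  apply hcl.preimage
  fun_prop

theorem amc_convex_epi {n : ℕ} {Ω : Set (En n)} {u : En n → ℝ} (h : AMC Ω u) :
    Convex ℝ (epi Ω u) :=
  (strictConvexOn_of_hess h.op h.cv h.sm h.pos).convexOn.convex_epigraph

/-- What the estimates use of an approximant of a wedge: `e = τ`. -/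
structure Appr {n : ℕ} (k : ℕ) (T τ c : ℝ) (Ω : Set (En n)) (u : En n → ℝ) : Prop
    extends AMC Ω u where
  box : BoxAt k T τ (epi Ω u)
  ball : ∀ p : En n × ℝ, τ ≤ p.2 → p.2 ≤ T → (∀ i : Fin n, i.val < k → τ ≤ p.1 i ∧ p.1 i ≤ T) →
      (∀ j : Fin n, k ≤ j.val → |p.1 j| ≤ c * τ) → p ∈ epi Ω u

theorem exists_appr {n k : ℕ} (h1 : Stmt_approxBox n k) (h2 : Stmt_approxBall n k)
    (hP1 : P1 n k) : ∃ c : ℝ, 0 < c ∧ ∀ T τ : ℝ, 1 ≤ T → 0 < τ → τ ≤ 1 → ∃ R ε : ℝ,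
      0 < R ∧ 0 < ε ∧ ∀ K, Wedge n k K → ∀ (Ω : Set (En n)) (u : En n → ℝ), AMC Ω u →
        Close R ε K (epi Ω u) → Appr k T τ c Ω u := by
  obtain ⟨c, hc, hball⟩ := h2 hP1
  refine ⟨c, hc, fun T τ hT hτ hτ1 => ?_⟩
  obtain ⟨R, ε, hR, hε, H⟩ := hball T τ hT hτ hτ1
  obtain ⟨R', ε', hR', hε', H'⟩ := h1 T τ hT hτ hτ1
  refine ⟨max R R', min ε ε', lt_max_of_lt_left hR, lt_min hε hε', fun K hK Ω u hu hcl => ?_⟩
  have c1 : Close R ε K (epi Ω u) := close_mono (le_max_left _ _) (min_le_left _ _) hcl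
  have c2 : Close R' ε' K (epi Ω u) := close_mono (le_max_right _ _) (min_le_right _ _) hcl
  exact ⟨hu, fun p hp ha hb => H' K hK Ω u hu c2 p hp ha hb,
    fun p ha hb hc hd => H K hK Ω u hu c1 p ha hb hc hd⟩

/-- Caps are compact. -/
theorem isCompact_nu {n k : ℕ} {Ω : Set (En n)} {u : En n → ℝ} (hcl : IsClosed (epi Ω u))
    (hE : Convex ℝ (epi Ω u))
    {T e A s β γ t : ℝ} {α : Fin n → ℝ} (hbox : BoxAt k T e (epi Ω u)) (he : 0 ≤ e)
    (he1 : e ≤ T) (hT : 1 < T)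
    (hα1 : ∀ i : Fin n, i.val < k → 1 ≤ α i) (hα0 : ∀ i : Fin n, k ≤ i.val → α i = 0)
    (hβ : 1 ≤ β) (hA : e * (∑ i, α i + β) ≤ A) (hTs : s + A + 1 < T)
    {p₀ : En n × ℝ} (hp₀ : p₀ ∈ epi Ω u) (h0z : 0 ≤ p₀.2) (h0z' : p₀.2 ≤ 1)
    (h0x : ∀ i : Fin n, i.val < k → 0 ≤ p₀.1 i) (h0x' : ∀ i : Fin n, i.val < k → p₀.1 i ≤ 1)
    (h0 : ∑ i, α i * p₀.1 i + β * p₀.2 ≤ s) (hts : t ≤ s + γ) :
    IsCompact {x | x ∈ Ω ∧ nu u α β γ x ≤ t} := by
  apply Metric.isCompact_of_isClosed_isBounded (isClosed_nu hcl (by linarith))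
  rw [isBounded_iff_forall_norm_le]
  refine ⟨n * (T + 1), fun x hx => norm_le_of_abs_le fun i => ?_⟩
  obtain ⟨hxΩ, hx2⟩ := hx
  have hb := cap_bound hE hbox he hT hα1 hα0 hβ hA hTs hp₀ h0z h0z' h0x h0x' h0 (x, u x)
    ⟨hxΩ, le_rfl⟩ (by simp only [nu] at hx2; simp only; linarith)
  by_cases hi : i.val < k
  · have := hb.2.1 i hi
    rw [abs_le]
    exact ⟨by linarith [this.1], by linarith [this.2]⟩
  · exact hb.2.2 i (not_lt.mp hi)

end Vale.Agent.P252.H889
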