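import Vale.Agent.P252.H889.NearX
import Vale.Agent.P252.H651.AreaLow2

/-!
# `Stmt_cellMain`: the main term per cell
-/

open scoped ContDiff Topology ENNReal
open Filter MeasureTheory

namespace Vale.Agent.P252.H889
open Vale.Agent.P252.R

variable {n : ℕ}

/-- Choice of a small parameter. -/
theorem exists_small {n k : ℕ} (hk : 1 ≤ k) {C a : ℝ} (hC : 0 ≤ C) (ha : 0 < a) :
    ∃ τ : ℝ, 0 < τ ∧ τ ≤ 1 / 2 ∧ C * τ ^ ((k : ℝ) / ((n : ℝ) + 2)) ≤ a := by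
  have hk0 : (0 : ℝ) < k := by exact_mod_cast hk
  have hn2 : (0 : ℝ) < (n : ℝ) + 2 := by positivity
  have hy : 0 < a / (C + 1) := by positivity
  refine ⟨min (1 / 2) ((a / (C + 1)) ^ (((n : ℝ) + 2) / k)), lt_min (by norm_num)
    (Real.rpow_pos_of_pos hy _), min_le_left _ _, ?_⟩
  have h1 : (min (1 / 2) ((a / (C + 1)) ^ (((n : ℝ) + 2) / k))) ^ ((k : ℝ) / ((n : ℝ) + 2)) ≤
      a / (C + 1) := by
    calc (min (1 / 2) ((a / (C + 1)) ^ (((n : ℝ) + 2) / k))) ^ ((k : ℝ) / ((n : ℝ) + 2))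
        ≤ ((a / (C + 1)) ^ (((n : ℝ) + 2) / k)) ^ ((k : ℝ) / ((n : ℝ) + 2)) := by
          apply Real.rpow_le_rpow
          · exact le_min (by norm_num) (Real.rpow_nonneg hy.le _)
          · exact min_le_right _ _
          · positivity
      _ = a / (C + 1) := by
          rw [← Real.rpow_mul hy.le]
          have : ((n : ℝ) + 2) / k * ((k : ℝ) / ((n : ℝ) + 2)) = 1 := by field_simp
          rw [this, Real.rpow_one]
  calc C * _ ≤ C * (a / (C + 1)) := mul_le_mul_of_nonneg_left h1 hC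
    _ ≤ a := by
      rw [← mul_div_assoc, div_le_iff₀ (by positivity)]
      nlinarith

/-- Covering of the cap. -/
theorem cover_area {k : ℕ} {Ω : Set (En n)} {f : En n → ℝ≥0∞} {u : En n → ℝ} {τ T t : ℝ}
    (hτ : 0 < τ) (ht : t ≤ T) :
    ∫⁻ x in {x | x ∈ Ω ∧ nu u (armv k) 1 0 x < t}, f x ≤
      (∫⁻ x in {x | x ∈ Ω ∧ τ ≤ u x ∧ u x ≤ T ∧ ∀ i : Fin n, i.val < k → τ ≤ x i ∧ x i ≤ T}, f x) +
      (∫⁻ x in {x | x ∈ Ω ∧ nu u (armv k) 1 0 x < t ∧ u x < τ}, f x) +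
      ∑ l : Fin n, ∫⁻ x in {x | l.val < k ∧ x ∈ Ω ∧ nu u (armv k) 1 0 x < t ∧ x l < τ}, f x := by
  set S := {x | x ∈ Ω ∧ τ ≤ u x ∧ u x ≤ T ∧ ∀ i : Fin n, i.val < k → τ ≤ x i ∧ x i ≤ T} with hS
  set Gz := {x | x ∈ Ω ∧ nu u (armv k) 1 0 x < t ∧ u x < τ} with hGz
  set G : Fin n → Set (En n) := fun l =>
    {x | l.val < k ∧ x ∈ Ω ∧ nu u (armv k) 1 0 x < t ∧ x l < τ} with hG
  have hsub : {x | x ∈ Ω ∧ nu u (armv k) 1 0 x < t} ⊆ (S ∪ Gz) ∪ ⋃ l, G l := by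
    rintro x ⟨hx, hν⟩
    by_cases h1 : u x < τ
    · exact Or.inl (Or.inr ⟨hx, hν, h1⟩)
    by_cases h2 : ∃ l : Fin n, l.val < k ∧ x l < τ
    · obtain ⟨l, hl, hxl⟩ := h2
      exact Or.inr (Set.mem_iUnion.mpr ⟨l, hl, hx, hν, hxl⟩)
    push Not at h1 h2
    left; left
    have hterm : ∀ i : Fin n, 0 ≤ armv k i * x i := by
      intro i
      by_cases hi : i.val < k
      · rw [armv_of_lt hi, one_mul]; linarith [h2 i hi]
      · rw [armv_of_ge (not_lt.mp hi), zero_mul]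
    have hsum : 0 ≤ ∑ i, armv k i * x i := Finset.sum_nonneg fun i _ => hterm i
    simp only [nu] at hν
    refine ⟨hx, h1, by linarith, fun i hi => ⟨h2 i hi, ?_⟩⟩
    have h3 : armv k i * x i ≤ ∑ i, armv k i * x i :=
      Finset.single_le_sum (f := fun i => armv k i * x i) (fun i _ => hterm i) (Finset.mem_univ i)
    rw [armv_of_lt hi, one_mul] at h3
    linarith
  calc ∫⁻ x in {x | x ∈ Ω ∧ nu u (armv k) 1 0 x < t}, f x
      ≤ ∫⁻ x in (S ∪ Gz) ∪ ⋃ l, G l, f x := lintegral_mono_set hsub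
    _ ≤ (∫⁻ x in S ∪ Gz, f x) + ∫⁻ x in ⋃ l, G l, f x := lintegral_union_le _ _ _
    _ ≤ ((∫⁻ x in S, f x) + ∫⁻ x in Gz, f x) + ∑ l : Fin n, ∫⁻ x in G l, f x := by
        gcongr
        · exact lintegral_union_le _ _ _
        · refine (lintegral_iUnion_le _ _).trans ?_
          rw [tsum_fintype]

/-- The cell. -/
def SS {n : ℕ} (k : ℕ) (τ : ℝ) (Ω : Set (En n)) (u : En n → ℝ) : Set (En n) :=
  {x | x ∈ Ω ∧ τ ≤ u x ∧ u x ≤ (k : ℝ) + 3 ∧
    ∀ i : Fin n, i.val < k → τ ≤ x i ∧ x i ≤ (k : ℝ) + 3}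

/-- The parameter of the big cap. -/
noncomputable def sB (k : ℕ) : ℝ := ((k : ℝ) + 1) * (k + 3) + 1

theorem SS_nu {k : ℕ} (hkn : k ≤ n) {τ : ℝ} {Ω : Set (En n)} {u : En n → ℝ} :
    ∀ x ∈ SS k τ Ω u, x ∈ Ω ∧ nu u (armv k) 1 0 x ≤ sB k - 1 := by
  intro x hx
  refine ⟨hx.1, ?_⟩
  have hsum : ∑ i, armv k i * x i ≤ ∑ i : Fin n, armv k i * ((k : ℝ) + 3) := by
    apply Finset.sum_le_sum
    intro i _
    by_cases hi : i.val < k
    · rw [armv_of_lt hi]; linarith [(hx.2.2.2 i hi).2]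
    · rw [armv_of_ge (not_lt.mp hi)]; simp
  rw [← Finset.sum_mul, sum_armv hkn] at hsum
  have := hx.2.2.1
  simp only [nu, sB]
  linarith

theorem SS_compact {k : ℕ} (hkn : k ≤ n) {τ : ℝ} {Ω : Set (En n)} {u : En n → ℝ} (h : SC Ω u)
    (hc : IsCompact {x | x ∈ Ω ∧ nu u (armv k) 1 0 x ≤ sB k}) : IsCompact (SS k τ Ω u) := by
  have hcl1 : IsClosed ({x | x ∈ Ω ∧ nu u (armv k) 1 0 x ≤ sB k} ∩ u ⁻¹' Set.Icc τ (k + 3)) :=
    (h.sm.continuousOn.mono (fun x hx => hx.1)).preimage_isClosed_of_isClosed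
      hc.isClosed isClosed_Icc
  have hcl2 : IsClosed {x : En n | ∀ i : Fin n, i.val < k → τ ≤ x i ∧ x i ≤ (k : ℝ) + 3} := by
    have : {x : En n | ∀ i : Fin n, i.val < k → τ ≤ x i ∧ x i ≤ (k : ℝ) + 3} =
        ⋂ i : Fin n, ⋂ (_ : i.val < k), (fun x : En n => x i) ⁻¹' Set.Icc τ (k + 3) := by
      ext x; simp
    rw [this]
    exact isClosed_iInter fun i => isClosed_iInter fun _ =>
      isClosed_Icc.preimage (by fun_prop)
  have hS : SS k τ Ω u = ({x | x ∈ Ω ∧ nu u (armv k) 1 0 x ≤ sB k} ∩ u ⁻¹' Set.Icc τ (k + 3)) ∩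
      {x : En n | ∀ i : Fin n, i.val < k → τ ≤ x i ∧ x i ≤ (k : ℝ) + 3} := by
    ext x
    constructor
    · intro hx
      exact ⟨⟨⟨hx.1, by linarith [(SS_nu hkn x hx).2]⟩, hx.2.1, hx.2.2.1⟩, hx.2.2.2⟩
    · rintro ⟨⟨⟨h1, -⟩, h2, h3⟩, h4⟩
      exact ⟨h1, h2, h3, h4⟩
  refine hc.of_isClosed_subset ?_ (fun x hx => ⟨hx.1, by linarith [(SS_nu hkn x hx).2]⟩)
  rw [hS]
  exact hcl1.inter hcl2

/-- The coefficients of the two face estimates. -/
noncomputable def K1 (n k : ℕ) (Cg c : ℝ) : ℝ :=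
  (Cg / ((1 / 2) ^ k * c ^ (n - k))) ^ (1 / ((n : ℝ) + 2)) *
      ((2 * (TT k + 1)) ^ n * ((2 * k + 7) ^ 2 * (2 * k + 7) + n * (2 * k + 7) ^ 3 +
        (2 * k + 7) ^ 2 * (n * (TT k + 1)))) ^ (((n : ℝ) + 1) / ((n : ℝ) + 2))

noncomputable def K2 (n k : ℕ) (Cg c : ℝ) : ℝ :=
  (Cg / ((1 / 2) ^ k * c ^ (n - k))) ^ (1 / ((n : ℝ) + 2)) *
      ((2 * k + 7) * (2 * (TT k + 1)) ^ n * ((2 * k + 7) ^ 2 * (TT k + 1) +
        n * (2 * k + 7) ^ 3 +
        (2 * k + 7) ^ 2 * (n * (TT k + 1) + (2 * k + 7)))) ^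
        (((n : ℝ) + 1) / ((n : ℝ) + 2))

theorem TT_pos (k : ℕ) : 0 < TT k := by unfold TT; positivity

theorem K1_nonneg {n k : ℕ} {Cg c : ℝ} (hCg : 0 ≤ Cg) (hc : 0 < c) : 0 ≤ K1 n k Cg c := by
  have := TT_pos k
  unfold K1; positivity

theorem K2_nonneg {n k : ℕ} {Cg c : ℝ} (hCg : 0 ≤ Cg) (hc : 0 < c) : 0 ≤ K2 n k Cg c := by
  have := TT_pos k
  unfold K2; positivity

/-- The area of the cell is bounded below. -/
theorem area_SS {k : ℕ} (hkn : k ≤ n) {Ω : Set (En n)} {u : En n → ℝ} {τ c ca Cg : ℝ}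
    (hlam : Stmt_lamInt n) (hτ : 0 < τ) (hτ1 : τ ≤ 1 / 2) (h : Appr k (TT k) τ c Ω u)
    (hc : 0 < c) (hCg : 0 ≤ Cg) (hca : 0 < ca)
    (hgrad : ∀ (Ω : Set (En n)) (u : En n → ℝ), SC Ω u → Convex ℝ Ω →
      ∀ (X : En n) (zX r0 : ℝ) (r : Fin n → ℝ), 0 < r0 → (∀ i, 0 < r i) →
      (∀ (d : En n) (s : ℝ), (∀ i, |d i| ≤ r i) → |s| ≤ r0 → (X + d, zX + s) ∈ epi Ω u) →
      ∀ G : Set (En n), MeasurableSet G → G ⊆ Ω →
        ∫⁻ x in G, ENNReal.ofReal (dt u x * Lam u X zX x ^ (-((n : ℝ) + 1))) ≤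
          ENNReal.ofReal (Cg / (r0 * ∏ i, r i)))
    (hτs : (K1 n k Cg c + n * K2 n k Cg c) * τ ^ ((k : ℝ) / ((n : ℝ) + 2)) ≤ ca / 2)
    (ha : ca ≤ ∫ x in {x | x ∈ Ω ∧ nu u (armv k) 1 0 x < k + 3},
      dt u x ^ (1 / ((n : ℝ) + 2))) :
    ENNReal.ofReal (ca / 2) ≤
      ∫⁻ x in SS k τ Ω u, ENNReal.ofReal (dt u x ^ (1 / ((n : ℝ) + 2))) := by
  have hsc : SC Ω u := h.toAMC.toAMLoc.toSC
  have hk0 : (0 : ℝ) ≤ k := by positivity
  obtain ⟨hb1, hcpt1⟩ := cap_of_appr (s := (k : ℝ) + 3) hτ (by linarith) h hc (α := armv k)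
    (β := 1) (fun i hi => (armv_of_lt hi).ge) (fun i hi => armv_of_ge hi) le_rfl
    (by rw [sum_armv hkn]; nlinarith) (by linarith) (by unfold TT; linarith)
  have hcapcpt : IntegrableOn (fun x => dt u x ^ (1 / ((n : ℝ) + 2)))
      {x | x ∈ Ω ∧ nu u (armv k) 1 0 x < k + 3} := by
    have : ContinuousOn (fun x => dt u x ^ (1 / ((n : ℝ) + 2)))
        {x | x ∈ Ω ∧ nu u (armv k) 1 0 x ≤ k + 3} :=
      ((continuousOn_dt hsc).mono fun x hx => hx.1).rpow_const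
        fun x hx => Or.inl (hsc.pos x hx.1).det_pos.ne'
    exact (this.integrableOn_compact hcpt1).mono_set fun x hx => ⟨hx.1, hx.2.le⟩
  have hcapm : MeasurableSet {x | x ∈ Ω ∧ nu u (armv k) 1 0 x < k + 3} :=
    ((continuousOn_nu hsc (armv k) 1 0).isOpen_inter_preimage hsc.op
      (isOpen_Iio (a := (k : ℝ) + 3))).measurableSet
  have hA0 : ENNReal.ofReal ca ≤ ∫⁻ x in {x | x ∈ Ω ∧ nu u (armv k) 1 0 x < k + 3},
      ENNReal.ofReal (dt u x ^ (1 / ((n : ℝ) + 2))) := by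
    rw [← ofReal_integral_eq_lintegral_ofReal hcapcpt]
    · exact ENNReal.ofReal_le_ofReal ha
    · filter_upwards [ae_restrict_mem hcapm] with x hx
      exact Real.rpow_nonneg (hsc.pos x hx.1).det_pos.le _
  have hcov := cover_area (k := k) (Ω := Ω) (u := u)
    (f := fun x => ENNReal.ofReal (dt u x ^ (1 / ((n : ℝ) + 2)))) hτ (le_refl ((k : ℝ) + 3))
  have hz := near_z hlam hkn hτ hτ1 h hc hCg hgrad
  change _ ≤ ENNReal.ofReal (K1 n k Cg c * τ ^ ((k : ℝ) / ((n : ℝ) + 2))) at hz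
  have hx : ∀ l : Fin n, ∫⁻ x in {x | l.val < k ∧ x ∈ Ω ∧ nu u (armv k) 1 0 x < k + 3 ∧ x l < τ},
      ENNReal.ofReal (dt u x ^ (1 / ((n : ℝ) + 2))) ≤
      ENNReal.ofReal (K2 n k Cg c * τ ^ ((k : ℝ) / ((n : ℝ) + 2))) := by
    intro l
    by_cases hl : l.val < k
    · have := near_x hlam hkn hl hτ hτ1 h hc hCg hgrad
      change _ ≤ ENNReal.ofReal (K2 n k Cg c * τ ^ ((k : ℝ) / ((n : ℝ) + 2))) at this
      simpa only [hl, true_and] using this
    · simp [hl]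
  have hK1 := K1_nonneg (n := n) (k := k) hCg hc
  have hK2 := K2_nonneg (n := n) (k := k) hCg hc
  have hface : (∫⁻ x in {x | x ∈ Ω ∧ nu u (armv k) 1 0 x < k + 3 ∧ u x < τ},
      ENNReal.ofReal (dt u x ^ (1 / ((n : ℝ) + 2)))) +
      ∑ l : Fin n, ∫⁻ x in {x | l.val < k ∧ x ∈ Ω ∧ nu u (armv k) 1 0 x < k + 3 ∧ x l < τ},
        ENNReal.ofReal (dt u x ^ (1 / ((n : ℝ) + 2))) ≤ ENNReal.ofReal (ca / 2) := by
    have hτp : 0 ≤ τ ^ ((k : ℝ) / ((n : ℝ) + 2)) := by positivity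
    calc _ ≤ ENNReal.ofReal (K1 n k Cg c * τ ^ ((k : ℝ) / ((n : ℝ) + 2))) +
          ∑ _l : Fin n, ENNReal.ofReal (K2 n k Cg c * τ ^ ((k : ℝ) / ((n : ℝ) + 2))) :=
          add_le_add hz (Finset.sum_le_sum fun l _ => hx l)
      _ = ENNReal.ofReal (K1 n k Cg c * τ ^ ((k : ℝ) / ((n : ℝ) + 2)) +
            n * (K2 n k Cg c * τ ^ ((k : ℝ) / ((n : ℝ) + 2)))) := by
          rw [← ENNReal.ofReal_sum_of_nonneg (fun _ _ => by positivity),
            ← ENNReal.ofReal_add (by positivity) (by positivity)]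
          simp
      _ ≤ ENNReal.ofReal (ca / 2) := by
          apply ENNReal.ofReal_le_ofReal
          linarith
  have h5 : ENNReal.ofReal ca ≤
      (∫⁻ x in SS k τ Ω u, ENNReal.ofReal (dt u x ^ (1 / ((n : ℝ) + 2)))) +
      ENNReal.ofReal (ca / 2) := by
    refine hA0.trans (hcov.trans ?_)
    rw [add_assoc]
    exact add_le_add le_rfl hface
  have h6 : ENNReal.ofReal ca = ENNReal.ofReal (ca / 2) + ENNReal.ofReal (ca / 2) := by
    rw [← ENNReal.ofReal_add (by positivity) (by positivity)]; congr 1; ring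
  rw [h6] at h5
  exact (ENNReal.add_le_add_iff_right ENNReal.ofReal_ne_top).mp h5

/-- The constant of the `Lam` integral. -/
noncomputable def WW (n k : ℕ) (M T2 : ℝ) : ℝ :=
  (2 * (T2 + 1)) ^ n * ((sB k + (k + 1)) ^ 2 * (M + T2) +
      n / (3 * 1) * (sB k + (k + 1)) ^ 3 + 1 / 1 * ((sB k + (k + 1)) ^ 2 * (n * (T2 + M))))

theorem sB_ge (k : ℕ) : (k : ℝ) + 4 ≤ sB k := by
  have hk0 : (0 : ℝ) ≤ k := by positivity
  unfold sB; nlinarith

theorem Lam_SS {k : ℕ} (hkn : k ≤ n) {Ω : Set (En n)} {u : En n → ℝ} {τ c M T2 : ℝ}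
    (hlam : Stmt_lamInt n) (hτ : 0 < τ) (hτ1 : τ ≤ 1 / 2) (hM : 1 ≤ M)
    (hT2 : T2 = sB k + k + 4 + M) (h : Appr k T2 τ c Ω u) (hc : 0 < c) :
    ((M • ones n k, M) : En n × ℝ) ∈ epi Ω u ∧
    IsCompact {x | x ∈ Ω ∧ nu u (armv k) 1 0 x ≤ sB k} ∧
    ∫⁻ x in SS k τ Ω u, ENNReal.ofReal (Lam u (M • ones n k) M x) ≤
      ENNReal.ofReal (WW n k M T2) := by
  have hsc : SC Ω u := h.toAMC.toAMLoc.toSC
  have hk0 : (0 : ℝ) ≤ k := by positivity
  have hs3 := sB_ge k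
  obtain ⟨s, hs⟩ : ∃ s : ℝ, s = sB k := ⟨_, rfl⟩
  rw [← hs] at hs3 hT2 ⊢
  have hT20 : 0 < T2 := by rw [hT2]; linarith
  have hs0 : 0 < s := by linarith
  obtain ⟨hb3, hcpt3⟩ := cap_of_appr (s := s) hτ (by linarith) h hc (α := armv k) (β := 1)
    (fun i hi => (armv_of_lt hi).ge) (fun i hi => armv_of_ge hi) le_rfl
    (by rw [sum_armv hkn]; nlinarith) (by linarith) (by rw [hT2]; linarith)
  have hMmem : ((M • ones n k, M) : En n × ℝ) ∈ epi Ω u := by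
    apply h.ball
    · simp only; linarith
    · simp only; rw [hT2]; linarith
    · intro i hi
      simp only [PiLp.smul_apply, ones_apply_lt hi, smul_eq_mul, mul_one]
      constructor
      · linarith
      · rw [hT2]; linarith
    · intro j hj
      simp only [PiLp.smul_apply, ones_apply_ge hj, smul_zero, abs_zero]
      positivity
  refine ⟨hMmem, hcpt3, ?_⟩
  have hlow3 : ∀ x ∈ Ω, nu u (armv k) 1 0 x ≤ s → -((k : ℝ) + 1) ≤ nu u (armv k) 1 0 x := by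
    intro x hx hν
    obtain ⟨⟨h1, h2⟩, h3, -⟩ := hb3 x hx hν
    have h4 := sum_armv_ge hkn (x := x) (τ := τ) (fun i hi => (h3 i hi).1)
    have : (k : ℝ) * τ ≤ k := by nlinarith
    simp only [nu]
    linarith
  have hSν : ∀ x ∈ SS k τ Ω u, x ∈ Ω ∧ nu u (armv k) 1 0 x ≤ s - 1 := by
    rw [hs]; exact SS_nu hkn
  have hLint := lintegral_Lam_le hlam hsc h.cv (X := M • ones n k) (zX := M) (α := armv k)
    (β := 1) (γ := 0) (t := s) one_pos hcpt3 hMmem (a := M + T2) (b := n * (T2 + M))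
    (C₁ := s + (k + 1)) (V := (2 * (T2 + 1)) ^ n)
    (by
      intro x hx hν
      have h1 := (hb3 x hx hν).1
      rw [abs_le]; constructor <;> linarith)
    (by
      intro x hx hν
      obtain ⟨-, h3, -⟩ := hb3 x hx hν
      calc |∑ i, armv k i * (x i - (M • ones n k) i)|
          ≤ ∑ i, |armv k i * (x i - (M • ones n k) i)| := Finset.abs_sum_le_sum_abs _ _
        _ ≤ ∑ _i : Fin n, (T2 + M) := by
            apply Finset.sum_le_sum
            intro i _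
            by_cases hi : i.val < k
            · have := h3 i hi
              rw [armv_of_lt hi, PiLp.smul_apply, ones_apply_lt hi, one_mul, smul_eq_mul, mul_one,
                abs_le]
              constructor <;> linarith
            · rw [armv_of_ge (not_lt.mp hi), zero_mul, abs_zero]; linarith
        _ = n * (T2 + M) := by simp; ring)
    (by
      intro x hx hν
      have := hlow3 x hx hν
      linarith)
    (by positivity) (by positivity) (by positivity)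
    (by
      have e : (2 * (T2 + 1)) ^ n = ∏ _i : Fin n, ((T2 + 1) - (-(T2 + 1))) := by
        rw [Finset.prod_const, Finset.card_univ, Fintype.card_fin]; ring
      rw [e]
      apply volume_le_box (a := fun _ => -(T2 + 1)) (b := fun _ => T2 + 1)
      · intro i; linarith
      · intro x hx i
        obtain ⟨-, h3, h4⟩ := hb3 x hx.1 hx.2.le
        by_cases hi : i.val < k
        · have := h3 i hi
          constructor <;> linarith
        · exact abs_le.mp (h4 i (not_lt.mp hi)))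
    (by positivity) (G := SS k τ Ω u) hSν
  rw [WW, ← hs]
  exact hLint

/-- The final Hölder step. -/
theorem final_SS {k : ℕ} {Ω : Set (En n)} {u : En n → ℝ} {τ ca M W : ℝ} (hsc : SC Ω u)
    (hScpt : IsCompact (SS k τ Ω u)) (hca : 0 < ca) (hW0 : 0 < W)
    (hgeS : ∀ x ∈ SS k τ Ω u, 0 < Bf k u x ∧ Bf k u x ≤ Lam u (M • ones n k) M x)
    (hAS : ENNReal.ofReal (ca / 2) ≤
      ∫⁻ x in SS k τ Ω u, ENNReal.ofReal (dt u x ^ (1 / ((n : ℝ) + 2))))
    (hLint : ∫⁻ x in SS k τ Ω u, ENNReal.ofReal (Lam u (M • ones n k) M x) ≤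
      ENNReal.ofReal W) :
    ((ca / 2) / W ^ ((n : ℝ) / ((n : ℝ) + 2))) ^ (((n : ℝ) + 2) / 2) ≤
      ∫ x in SS k τ Ω u, Bf k u x ^ (-(n : ℝ) / 2) * Real.sqrt (dt u x) := by
  have hn2 : (0 : ℝ) < (n : ℝ) + 2 := by positivity
  set S := SS k τ Ω u with hS
  have hSΩ : S ⊆ Ω := fun x hx => hx.1
  have hSm : MeasurableSet S := hScpt.isClosed.measurableSet
  have hLpos : ∀ x ∈ S, 0 < Lam u (M • ones n k) M x := fun x hx =>
    (hgeS x hx).1.trans_le (hgeS x hx).2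
  have hLc := continuousOn_Lam hsc (M • ones n k) M
  have hH := area_le_main hsc hLc hSm hSΩ hLpos
  have hdc := (continuousOn_dt hsc).mono hSΩ
  have hBc := (continuousOn_Bf hsc k).mono hSΩ
  have hI1 : IntegrableOn (fun x => Lam u (M • ones n k) M x ^ (-(n : ℝ) / 2) *
      Real.sqrt (dt u x)) S :=
    (((hLc.mono hSΩ).rpow_const fun x hx => Or.inl (hLpos x hx).ne').mul
      hdc.sqrt).integrableOn_compact hScpt
  have hI2 : IntegrableOn (fun x => Bf k u x ^ (-(n : ℝ) / 2) * Real.sqrt (dt u x)) S :=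
    ((hBc.rpow_const fun x hx => Or.inl (hgeS x hx).1.ne').mul
      hdc.sqrt).integrableOn_compact hScpt
  set J := ∫ x in S, Lam u (M • ones n k) M x ^ (-(n : ℝ) / 2) * Real.sqrt (dt u x) with hJ
  have hJ0 : 0 ≤ J := by
    apply setIntegral_nonneg hSm
    intro x hx
    have := hLpos x hx
    positivity
  have hJle : J ≤ ∫ x in S, Bf k u x ^ (-(n : ℝ) / 2) * Real.sqrt (dt u x) := by
    apply setIntegral_mono_on hI1 hI2 hSm
    intro x hx
    have h7 := (hgeS x hx).1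
    have h8 := (hgeS x hx).2
    apply mul_le_mul_of_nonneg_right _ (Real.sqrt_nonneg _)
    apply Real.rpow_le_rpow_of_nonpos h7 h8
    have : (0 : ℝ) ≤ (n : ℝ) / 2 := by positivity
    linarith
  have hJeq : ∫⁻ x in S, ENNReal.ofReal (Lam u (M • ones n k) M x ^ (-(n : ℝ) / 2) *
      Real.sqrt (dt u x)) = ENNReal.ofReal J := by
    rw [hJ, ofReal_integral_eq_lintegral_ofReal hI1]
    filter_upwards [ae_restrict_mem hSm] with x hx
    have := hLpos x hx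
    simp only [Pi.zero_apply]
    positivity
  rw [hJeq] at hH
  have hfin : ENNReal.ofReal (ca / 2) ≤ ENNReal.ofReal (J ^ (2 / ((n : ℝ) + 2)) *
      W ^ ((n : ℝ) / ((n : ℝ) + 2))) := by
    refine (hAS.trans hH).trans ?_
    rw [ENNReal.ofReal_mul (by positivity),
      ← ENNReal.ofReal_rpow_of_nonneg hJ0 (by positivity),
      ← ENNReal.ofReal_rpow_of_nonneg hW0.le (by positivity)]
    gcongr
  rw [ENNReal.ofReal_le_ofReal_iff (by positivity)] at hfin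
  refine le_trans ?_ hJle
  have hWp : 0 < W ^ ((n : ℝ) / ((n : ℝ) + 2)) := by positivity
  have h9 : (ca / 2) / W ^ ((n : ℝ) / ((n : ℝ) + 2)) ≤ J ^ (2 / ((n : ℝ) + 2)) := by
    rw [div_le_iff₀ hWp]; exact hfin
  calc ((ca / 2) / W ^ ((n : ℝ) / ((n : ℝ) + 2))) ^ (((n : ℝ) + 2) / 2)
      ≤ (J ^ (2 / ((n : ℝ) + 2))) ^ (((n : ℝ) + 2) / 2) := by
        apply Real.rpow_le_rpow (by positivity) h9 (by positivity)
    _ = J := by
        rw [← Real.rpow_mul hJ0]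
        have : 2 / ((n : ℝ) + 2) * (((n : ℝ) + 2) / 2) = 1 := by field_simp
        rw [this, Real.rpow_one]

/-- The main term per cell. -/
theorem cellMain (n k : ℕ) (hbox : Stmt_approxBox n k) (hball : Stmt_approxBall n k)
    (hgrad : Stmt_gradImage n) (hlam : Stmt_lamInt n) (hcmp : Stmt_compare n)
    (hgeom : Stmt_cellGeom n k) : Stmt_cellMain n k := by
  intro hk1 hkn hP1 hP2
  obtain ⟨Ra, εa, ca, hRa, hεa, hca, harea⟩ := H651.areaLow hcmp hbox hball hP1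
  obtain ⟨c, hc, happ⟩ := exists_appr hbox hball hP1
  obtain ⟨Cg, hCg, hgrad'⟩ := hgrad
  have hk0 : (0 : ℝ) ≤ k := by positivity
  have hK1 := K1_nonneg (n := n) (k := k) hCg.le hc
  have hK2 := K2_nonneg (n := n) (k := k) hCg.le hc
  obtain ⟨τ, hτ, hτ1, hτs⟩ := exists_small (n := n) hk1
    (C := K1 n k Cg c + n * K2 n k Cg c) (a := ca / 2) (by positivity) (by positivity)
  have hτ1' : τ ≤ 1 := by linarith
  obtain ⟨R1, ε1, hR1, hε1, h1⟩ := happ (TT k) τ (by unfold TT; linarith) hτ hτ1'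
  obtain ⟨R2, ε2, C, M, hR2, hε2, hC, hM, h2⟩ := hgeom hk1 hkn hP1 hP2 τ hτ hτ1' (k + 3)
    (by linarith)
  have hs3 := sB_ge k
  obtain ⟨T2, hT2⟩ : ∃ T2 : ℝ, T2 = sB k + k + 4 + M := ⟨_, rfl⟩
  have hT20 : 0 < T2 := by rw [hT2]; linarith
  obtain ⟨R3, ε3, hR3, hε3, h3⟩ := happ T2 τ (by rw [hT2]; linarith) hτ hτ1'
  have hW0 : 0 < WW n k M T2 := by
    have : 0 < sB k := by linarith
    have hM0 : 0 < M := by linarith
    unfold WW; positivity
  refine ⟨max (max Ra R1) (max R2 R3), min (min εa ε1) (min ε2 ε3),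
    ((ca / 2) / (WW n k M T2) ^ ((n : ℝ) / ((n : ℝ) + 2))) ^ (((n : ℝ) + 2) / 2), τ, k + 3,
    by positivity, by positivity, by positivity, hτ, hτ1', by linarith, ?_⟩
  intro K hK Ω u hu hcl
  have ha := harea K hK Ω u hu (close_mono ((le_max_left _ _).trans (le_max_left _ _))
    ((min_le_left _ _).trans (min_le_left _ _)) hcl)
  have hap1 := h1 K hK Ω u hu (close_mono ((le_max_right _ _).trans (le_max_left _ _))
    ((min_le_left _ _).trans (min_le_right _ _)) hcl)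
  have hge := h2 K hK Ω u hu (close_mono ((le_max_left _ _).trans (le_max_right _ _))
    ((min_le_right _ _).trans (min_le_left _ _)) hcl)
  have hap3 := h3 K hK Ω u hu (close_mono ((le_max_right _ _).trans (le_max_right _ _))
    ((min_le_right _ _).trans (min_le_right _ _)) hcl)
  have hsc : SC Ω u := hu.toAMLoc.toSC
  change IsCompact (SS k τ Ω u) ∧ (∀ x ∈ SS k τ Ω u, 0 < Bf k u x) ∧
    _ ≤ ∫ x in SS k τ Ω u, Bf k u x ^ (-(n : ℝ) / 2) * Real.sqrt (dt u x)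
  obtain ⟨-, hcpt3, hLint⟩ := Lam_SS hkn hlam hτ hτ1 hM hT2 hap3 hc
  have hScpt := SS_compact (τ := τ) hkn hsc hcpt3
  have hgeS : ∀ x ∈ SS k τ Ω u, 0 < Bf k u x ∧ Bf k u x ≤ Lam u (M • ones n k) M x := by
    intro x hx
    have := hge x hx.1 hx.2.1 hx.2.2.1 hx.2.2.2
    exact ⟨this.1, this.2.2.2⟩
  refine ⟨hScpt, fun x hx => (hgeS x hx).1, ?_⟩
  have hAS := area_SS hkn hlam hτ hτ1 hap1 hc hCg.le hca hgrad' hτs ha
  exact final_SS hsc hScpt hca hW0 hgeS hAS hLint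

end Vale.Agent.P252.H889
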