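import Vale.Agent.P252.H889.Cap
import Vale.Agent.P252.H474.Trans

/-!
# Integrals of `Lam` over caps and two Hölder inequalities
-/

open scoped ContDiff Topology ENNReal
open Filter MeasureTheory

namespace Vale.Agent.P252.H889
open Vale.Agent.P252.R

variable {n : ℕ} {Ω : Set (En n)} {u : En n → ℝ}

theorem continuousOn_pdu (h : SC Ω u) (i : Fin n) : ContinuousOn (pd i u) Ω := fun _ hx =>
  (differentiableAt_pd_of h.op h.sm i hx).continuousAt.continuousWithinAt

theorem continuousOn_dt (h : SC Ω u) : ContinuousOn (dt u) Ω :=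
  (Vale.Agent.P252.H474.contDiffOn_det_hess h.op h.sm).continuousOn

theorem continuousOn_nu (h : SC Ω u) (α : Fin n → ℝ) (β γ : ℝ) :
    ContinuousOn (nu u α β γ) Ω := by
  have := h.sm.continuousOn
  unfold nu
  fun_prop

theorem continuousOn_Lam (h : SC Ω u) (X : En n) (zX : ℝ) : ContinuousOn (Lam u X zX) Ω := by
  have h1 := h.sm.continuousOn
  have h2 : ∀ i, ContinuousOn (pd i u) Ω := continuousOn_pdu h
  unfold Lam
  fun_prop

theorem continuousOn_Bf (h : SC Ω u) (k : ℕ) : ContinuousOn (Bf k u) Ω := by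
  have h1 := h.sm.continuousOn
  have h2 : ∀ i, ContinuousOn (pd i u) Ω := continuousOn_pdu h
  unfold Bf
  refine h1.sub (continuousOn_finsetSum _ fun i _ => ?_)
  by_cases hi : i.val < k
  · simp only [if_pos hi]
    have := h2 i
    fun_prop
  · simp only [if_neg hi]
    exact continuousOn_const

/-- Points of the epigraph lie above all tangent planes. -/
theorem Lam_nonneg (h : SC Ω u) (hcv : Convex ℝ Ω) {X : En n} {zX : ℝ} (hX : (X, zX) ∈ epi Ω u)
    {x : En n} (hx : x ∈ Ω) : 0 ≤ Lam u X zX x := by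
  have h1 := tangent_le h.op hcv h.sm h.pos hx hX.1
  rw [fderiv_apply_eq_sum_pd] at h1
  have h2 : ∑ i, (X - x) i * pd i u x = ∑ i, pd i u x * (X i - x i) := by
    refine Finset.sum_congr rfl fun i _ => ?_
    simp; ring
  rw [h2] at h1
  have h3 : u X ≤ zX := hX.2
  simp only [Lam]
  linarith

theorem Lam_pos (h : SC Ω u) (hcv : Convex ℝ Ω) {X : En n} {zX r : ℝ} (hr : 0 < r)
    (hX : (X, zX - r) ∈ epi Ω u) {x : En n} (hx : x ∈ Ω) : 0 < Lam u X zX x := by
  have h1 := Lam_nonneg h hcv hX hx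
  simp only [Lam] at h1 ⊢
  linarith

/-- The integral of `Lam` over a subset of a cap. -/
theorem lintegral_Lam_le (hlam : Stmt_lamInt n) (h : SC Ω u) (hcv : Convex ℝ Ω)
    {X : En n} {zX : ℝ} {α : Fin n → ℝ} {β γ t : ℝ} (hβ : 0 < β)
    (hK : IsCompact {x | x ∈ Ω ∧ nu u α β γ x ≤ t}) (hX : (X, zX) ∈ epi Ω u) {a b C₁ V : ℝ}
    (ha : ∀ x ∈ Ω, nu u α β γ x ≤ t → |zX - u x| ≤ a)
    (hb : ∀ x ∈ Ω, nu u α β γ x ≤ t → |∑ i, α i * (x i - X i)| ≤ b)
    (hC : ∀ x ∈ Ω, nu u α β γ x ≤ t → t - nu u α β γ x ≤ C₁) (hC0 : 0 ≤ C₁)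
    (ha0 : 0 ≤ a) (hb0 : 0 ≤ b)
    (hV : volume {x | x ∈ Ω ∧ nu u α β γ x < t} ≤ ENNReal.ofReal V) (hV0 : 0 ≤ V)
    {G : Set (En n)} (hG : ∀ x ∈ G, x ∈ Ω ∧ nu u α β γ x ≤ t - 1) :
    ∫⁻ x in G, ENNReal.ofReal (Lam u X zX x) ≤
      ENNReal.ofReal (V * (C₁ ^ 2 * a + n / (3 * β) * C₁ ^ 3 + 1 / β * (C₁ ^ 2 * b))) := by
  set S : Set (En n) := {x | x ∈ Ω ∧ nu u α β γ x < t} with hS
  set Kc : Set (En n) := {x | x ∈ Ω ∧ nu u α β γ x ≤ t} with hKc
  have hSK : S ⊆ Kc := fun x hx => ⟨hx.1, hx.2.le⟩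
  have hKΩ : Kc ⊆ Ω := fun x hx => hx.1
  have hGS : G ⊆ S := fun x hx => ⟨(hG x hx).1, by linarith [(hG x hx).2]⟩
  have hSm : MeasurableSet S := by
    have : IsOpen S := by
      have h1 := (continuousOn_nu h α β γ).isOpen_inter_preimage h.op (isOpen_Iio (a := t))
      exact h1
    exact this.measurableSet
  set f : En n → ℝ := fun x => (t - nu u α β γ x) ^ 2 * Lam u X zX x with hf
  have hν := (continuousOn_nu h α β γ).mono hKΩ
  have hL := (continuousOn_Lam h X zX).mono hKΩ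
  have hfc : ContinuousOn f Kc := by
    simp only [hf]; fun_prop
  have hfi : IntegrableOn f S := (hfc.integrableOn_compact hK).mono_set hSK
  have hVfin : volume S < ⊤ := lt_of_le_of_lt hV ENNReal.ofReal_lt_top
  have hVr : volume.real S ≤ V := by
    rw [Measure.real]
    exact ENNReal.toReal_le_of_le_ofReal hV0 hV
  have hVr0 : 0 ≤ volume.real S := measureReal_nonneg
  -- step 1
  have step1 : ∫⁻ x in G, ENNReal.ofReal (Lam u X zX x) ≤ ENNReal.ofReal (∫ x in S, f x) := by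
    rw [ofReal_integral_eq_lintegral_ofReal hfi]
    · calc ∫⁻ x in G, ENNReal.ofReal (Lam u X zX x)
          ≤ ∫⁻ x in G, ENNReal.ofReal (f x) := by
            apply lintegral_mono_ae
            have : ∀ᵐ x ∂(volume.restrict G), x ∈ {x | x ∈ Ω ∧ nu u α β γ x ≤ t - 1} := by
              have hm : MeasurableSet {x | x ∈ Ω ∧ nu u α β γ x ≤ t - 1} := by
                have hm1 : {x | x ∈ Ω ∧ nu u α β γ x ≤ t - 1} =
                    Kc ∩ (nu u α β γ) ⁻¹' (Set.Iic (t - 1)) := by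
                  ext x; constructor
                  · rintro ⟨h1, h2⟩; exact ⟨⟨h1, by linarith⟩, h2⟩
                  · rintro ⟨h1, h2⟩; exact ⟨h1.1, h2⟩
                rw [hm1]
                exact (hν.preimage_isClosed_of_isClosed hK.isClosed isClosed_Iic).measurableSet
              exact ae_restrict_of_ae_restrict_of_subset (s := G)
                (t := {x | x ∈ Ω ∧ nu u α β γ x ≤ t - 1}) (fun x hx => hG x hx)
                (ae_restrict_mem hm)
            filter_upwards [this] with x hx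
            apply ENNReal.ofReal_le_ofReal
            have h1 : 0 ≤ Lam u X zX x := Lam_nonneg h hcv hX hx.1
            have h2 : 1 ≤ t - nu u α β γ x := by linarith [hx.2]
            have h3 : 1 ≤ (t - nu u α β γ x) ^ 2 := by nlinarith
            simp only [hf]
            nlinarith
        _ ≤ ∫⁻ x in S, ENNReal.ofReal (f x) := lintegral_mono_set hGS
    · filter_upwards [ae_restrict_mem hSm] with x hx
      have h1 : 0 ≤ Lam u X zX x := Lam_nonneg h hcv hX hx.1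
      exact mul_nonneg (sq_nonneg _) h1
  refine step1.trans (ENNReal.ofReal_le_ofReal ?_)
  have hI := hlam Ω u h X zX α β γ t hβ hK
  rw [← hS] at hI
  simp only [hf]
  rw [hI]
  have hC' : ∀ x ∈ S, |t - nu u α β γ x| ≤ C₁ := fun x hx => by
    rw [abs_of_pos (by linarith [hx.2])]; exact hC x hx.1 hx.2.le
  have b1 : ‖∫ x in S, (t - nu u α β γ x) ^ 2 * (zX - u x)‖ ≤ C₁ ^ 2 * a * volume.real S := by
    apply norm_setIntegral_le_of_norm_le_const hVfin
    intro x hx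
    rw [Real.norm_eq_abs, abs_mul, abs_pow]
    have := hC' x hx
    have h3 := ha x hx.1 hx.2.le
    gcongr
  have b2 : ‖∫ x in S, (t - nu u α β γ x) ^ 3‖ ≤ C₁ ^ 3 * volume.real S := by
    apply norm_setIntegral_le_of_norm_le_const hVfin
    intro x hx
    rw [Real.norm_eq_abs, abs_pow]
    have := hC' x hx
    gcongr
  have b3 : ‖∫ x in S, (t - nu u α β γ x) ^ 2 * ∑ i, α i * (x i - X i)‖ ≤
      C₁ ^ 2 * b * volume.real S := by
    apply norm_setIntegral_le_of_norm_le_const hVfin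
    intro x hx
    rw [Real.norm_eq_abs, abs_mul, abs_pow]
    have := hC' x hx
    have h3 := hb x hx.1 hx.2.le
    gcongr
  rw [Real.norm_eq_abs] at b1 b2 b3
  have c1 := (le_abs_self _).trans b1
  have c2 := (le_abs_self _).trans b2
  have c3 := (neg_abs_le (∫ x in S, (t - nu u α β γ x) ^ 2 * ∑ i, α i * (x i - X i)))
  have hn : (0 : ℝ) ≤ n / (3 * β) := by positivity
  have hβ' : (0 : ℝ) ≤ 1 / β := by positivity
  have d2 := mul_le_mul_of_nonneg_left c2 hn
  have d3 : -(1 / β * ∫ x in S, (t - nu u α β γ x) ^ 2 * ∑ i, α i * (x i - X i)) ≤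
      1 / β * (C₁ ^ 2 * b * volume.real S) := by
    have := mul_le_mul_of_nonneg_left (c3.trans' (neg_le_neg b3)) hβ'
    linarith
  have e : C₁ ^ 2 * a * volume.real S + n / (3 * β) * (C₁ ^ 3 * volume.real S) +
      1 / β * (C₁ ^ 2 * b * volume.real S) =
      volume.real S * (C₁ ^ 2 * a + n / (3 * β) * C₁ ^ 3 + 1 / β * (C₁ ^ 2 * b)) := by ring
  have hnn : 0 ≤ C₁ ^ 2 * a + n / (3 * β) * C₁ ^ 3 + 1 / β * (C₁ ^ 2 * b) := by positivity
  have := mul_le_mul_of_nonneg_right hVr hnn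
  linarith

/-- The affine area density against `D Lam^{-(n+1)}` and `Lam`. -/
theorem area_le_grad (h : SC Ω u) {L : En n → ℝ} (hLc : ContinuousOn L Ω) {G : Set (En n)}
    (hG : MeasurableSet G) (hGΩ : G ⊆ Ω) (hLp : ∀ x ∈ G, 0 < L x) :
    ∫⁻ x in G, ENNReal.ofReal (dt u x ^ (1 / ((n : ℝ) + 2))) ≤
      (∫⁻ x in G, ENNReal.ofReal (dt u x * L x ^ (-((n : ℝ) + 1)))) ^ (1 / ((n : ℝ) + 2)) *
      (∫⁻ x in G, ENNReal.ofReal (L x)) ^ (((n : ℝ) + 1) / ((n : ℝ) + 2)) := by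
  have hn2 : (0 : ℝ) < (n : ℝ) + 2 := by positivity
  have hdc := (continuousOn_dt h).mono hGΩ
  have hLc' := hLc.mono hGΩ
  have hdp : ∀ x ∈ G, 0 < dt u x := fun x hx => (h.pos x (hGΩ hx)).det_pos
  have hprodc : ContinuousOn (fun x => dt u x * L x ^ (-((n : ℝ) + 1))) G :=
    hdc.mul (hLc'.rpow_const fun x hx => Or.inl (hLp x hx).ne')
  have m1 : AEMeasurable (fun x => ENNReal.ofReal (dt u x * L x ^ (-((n : ℝ) + 1))))
      (volume.restrict G) := (hprodc.aemeasurable hG).ennreal_ofReal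
  have m2 : AEMeasurable (fun x => ENNReal.ofReal (L x)) (volume.restrict G) :=
    (hLc'.aemeasurable hG).ennreal_ofReal
  have key := ENNReal.lintegral_mul_norm_pow_le (μ := volume.restrict G) m1 m2
    (p := 1 / ((n : ℝ) + 2)) (q := ((n : ℝ) + 1) / ((n : ℝ) + 2)) (by positivity) (by positivity)
    (by field_simp; ring)
  refine le_trans (le_of_eq ?_) key
  apply setLIntegral_congr_fun hG
  intro x hx
  have hD := hdp x hx
  have hL := hLp x hx
  have hLpow : 0 < L x ^ (-((n : ℝ) + 1)) := Real.rpow_pos_of_pos hL _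
  simp only
  rw [ENNReal.ofReal_rpow_of_pos (mul_pos hD hLpow), ENNReal.ofReal_rpow_of_pos hL,
    ← ENNReal.ofReal_mul (by positivity)]
  congr 1
  rw [Real.mul_rpow hD.le hLpow.le, ← Real.rpow_mul hL.le, mul_assoc, ← Real.rpow_add hL]
  have : -((n : ℝ) + 1) * (1 / ((n : ℝ) + 2)) + ((n : ℝ) + 1) / ((n : ℝ) + 2) = 0 := by
    field_simp; ring
  rw [this, Real.rpow_zero, mul_one]

/-- The affine area density against `Lam^{-n/2} √D` and `Lam`. -/
theorem area_le_main (h : SC Ω u) {L : En n → ℝ} (hLc : ContinuousOn L Ω) {G : Set (En n)}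
    (hG : MeasurableSet G) (hGΩ : G ⊆ Ω) (hLp : ∀ x ∈ G, 0 < L x) :
    ∫⁻ x in G, ENNReal.ofReal (dt u x ^ (1 / ((n : ℝ) + 2))) ≤
      (∫⁻ x in G, ENNReal.ofReal (L x ^ (-(n : ℝ) / 2) * Real.sqrt (dt u x))) ^
        (2 / ((n : ℝ) + 2)) *
      (∫⁻ x in G, ENNReal.ofReal (L x)) ^ ((n : ℝ) / ((n : ℝ) + 2)) := by
  have hn2 : (0 : ℝ) < (n : ℝ) + 2 := by positivity
  have hdc := (continuousOn_dt h).mono hGΩ
  have hLc' := hLc.mono hGΩ
  have hdp : ∀ x ∈ G, 0 < dt u x := fun x hx => (h.pos x (hGΩ hx)).det_pos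
  have hprodc : ContinuousOn (fun x => L x ^ (-(n : ℝ) / 2) * Real.sqrt (dt u x)) G :=
    (hLc'.rpow_const fun x hx => Or.inl (hLp x hx).ne').mul hdc.sqrt
  have m1 : AEMeasurable (fun x => ENNReal.ofReal (L x ^ (-(n : ℝ) / 2) * Real.sqrt (dt u x)))
      (volume.restrict G) := (hprodc.aemeasurable hG).ennreal_ofReal
  have m2 : AEMeasurable (fun x => ENNReal.ofReal (L x)) (volume.restrict G) :=
    (hLc'.aemeasurable hG).ennreal_ofReal
  have key := ENNReal.lintegral_mul_norm_pow_le (μ := volume.restrict G) m1 m2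
    (p := 2 / ((n : ℝ) + 2)) (q := (n : ℝ) / ((n : ℝ) + 2)) (by positivity) (by positivity)
    (by field_simp; ring)
  refine le_trans (le_of_eq ?_) key
  apply setLIntegral_congr_fun hG
  intro x hx
  have hD := hdp x hx
  have hL := hLp x hx
  have hLpow : 0 < L x ^ (-(n : ℝ) / 2) := Real.rpow_pos_of_pos hL _
  have hsq : 0 < Real.sqrt (dt u x) := Real.sqrt_pos.mpr hD
  simp only
  rw [ENNReal.ofReal_rpow_of_pos (mul_pos hLpow hsq), ENNReal.ofReal_rpow_of_pos hL,
    ← ENNReal.ofReal_mul (by positivity)]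
  congr 1
  rw [Real.mul_rpow hLpow.le hsq.le, ← Real.rpow_mul hL.le, Real.sqrt_eq_rpow,
    ← Real.rpow_mul hD.le, mul_right_comm, ← Real.rpow_add hL]
  have e1 : -(n : ℝ) / 2 * (2 / ((n : ℝ) + 2)) + (n : ℝ) / ((n : ℝ) + 2) = 0 := by
    field_simp; ring
  have e2 : 1 / 2 * (2 / ((n : ℝ) + 2)) = 1 / ((n : ℝ) + 2) := by field_simp
  rw [e1, e2, Real.rpow_zero, one_mul]

end Vale.Agent.P252.H889
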