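import Vale.Agent.P252.H889.Lam

/-!
# The affine area near the faces of a wedge is small
-/

open scoped ContDiff Topology ENNReal
open Filter MeasureTheory

namespace Vale.Agent.P252.H889
open Vale.Agent.P252.R

variable {n : ℕ} {Ω : Set (En n)} {u : En n → ℝ}

/-- Volume of a set contained in a coordinate box. -/
theorem volume_le_box {S : Set (En n)} {a b : Fin n → ℝ} (hab : ∀ i, a i ≤ b i)
    (hS : ∀ x ∈ S, ∀ i, a i ≤ x i ∧ x i ≤ b i) :
    volume S ≤ ENNReal.ofReal (∏ i, (b i - a i)) := by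
  have h1 : S ⊆ (MeasurableEquiv.toLp 2 (Fin n → ℝ)).symm ⁻¹' (Set.Icc a b) := by
    intro x hx
    refine ⟨fun i => (hS x hx i).1, fun i => (hS x hx i).2⟩
  refine (measure_mono h1).trans ?_
  rw [(EuclideanSpace.volume_preserving_symm_measurableEquiv_toLp (Fin n)).measure_preimage
    measurableSet_Icc.nullMeasurableSet, Real.volume_Icc_pi,
    ENNReal.ofReal_prod_of_nonneg fun i _ => sub_nonneg.mpr (hab i)]

theorem prod_radius {n k : ℕ} (hk : k ≤ n) (a b : ℝ) :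
    ∏ i : Fin n, (if i.val < k then a else b) = a ^ k * b ^ (n - k) := by
  rw [Finset.prod_ite, Finset.prod_const, Finset.prod_const, Fin.card_filter_val_lt,
    min_eq_right hk]
  congr 2
  have h1 := Finset.card_filter_add_card_filter_not (s := (Finset.univ : Finset (Fin n)))
    (fun i : Fin n => i.val < k)
  rw [Fin.card_filter_val_lt, min_eq_right hk, Finset.card_univ, Fintype.card_fin] at h1
  omega

theorem pow_alg {n k : ℕ} (hk : k ≤ n) {A C' τ : ℝ} (hA : 0 ≤ A) (hC : 0 ≤ C') (hτ : 0 < τ) :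
    (A / τ ^ (n - k + 1)) ^ (1 / ((n : ℝ) + 2)) * (C' * τ) ^ (((n : ℝ) + 1) / ((n : ℝ) + 2)) =
      A ^ (1 / ((n : ℝ) + 2)) * C' ^ (((n : ℝ) + 1) / ((n : ℝ) + 2)) *
        τ ^ ((k : ℝ) / ((n : ℝ) + 2)) := by
  have hn2 : (0 : ℝ) < (n : ℝ) + 2 := by positivity
  have e1 : A / τ ^ (n - k + 1) = A * τ ^ (-((n - k + 1 : ℕ) : ℝ)) := by
    rw [Real.rpow_neg hτ.le, Real.rpow_natCast]; rfl
  rw [e1, Real.mul_rpow hA (by positivity), Real.mul_rpow hC hτ.le, ← Real.rpow_mul hτ.le]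
  have e2 : (k : ℝ) / ((n : ℝ) + 2) =
      -((n - k + 1 : ℕ) : ℝ) * (1 / ((n : ℝ) + 2)) + ((n : ℝ) + 1) / ((n : ℝ) + 2) := by
    rw [Nat.cast_add, Nat.cast_sub hk, Nat.cast_one]
    field_simp
    ring
  rw [e2, Real.rpow_add hτ]
  ring

/-- The abstract form: area of a piece from `gradImage` and a bound of the integral of `Lam`. -/
theorem area_piece {Cg : ℝ}
    (hgrad : ∀ (Ω : Set (En n)) (u : En n → ℝ), SC Ω u → Convex ℝ Ω →
      ∀ (X : En n) (zX r0 : ℝ) (r : Fin n → ℝ), 0 < r0 → (∀ i, 0 < r i) →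
      (∀ (d : En n) (s : ℝ), (∀ i, |d i| ≤ r i) → |s| ≤ r0 → (X + d, zX + s) ∈ epi Ω u) →
      ∀ G : Set (En n), MeasurableSet G → G ⊆ Ω →
        ∫⁻ x in G, ENNReal.ofReal (dt u x * Lam u X zX x ^ (-((n : ℝ) + 1))) ≤
          ENNReal.ofReal (Cg / (r0 * ∏ i, r i)))
    (h : SC Ω u) (hcv : Convex ℝ Ω) {X : En n} {zX r0 : ℝ} {r : Fin n → ℝ} (hr0 : 0 < r0)
    (hr : ∀ i, 0 < r i)
    (hbox : ∀ (d : En n) (s : ℝ), (∀ i, |d i| ≤ r i) → |s| ≤ r0 → (X + d, zX + s) ∈ epi Ω u)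
    {G : Set (En n)} (hG : MeasurableSet G) (hGΩ : G ⊆ Ω) {W : ℝ}
    (hW : ∫⁻ x in G, ENNReal.ofReal (Lam u X zX x) ≤ ENNReal.ofReal W) :
    ∫⁻ x in G, ENNReal.ofReal (dt u x ^ (1 / ((n : ℝ) + 2))) ≤
      ENNReal.ofReal (Cg / (r0 * ∏ i, r i)) ^ (1 / ((n : ℝ) + 2)) *
      ENNReal.ofReal W ^ (((n : ℝ) + 1) / ((n : ℝ) + 2)) := by
  have hmem : (X, zX - r0) ∈ epi Ω u := by
    have := hbox 0 (-r0) (fun i => by simpa using (hr i).le) (by rw [abs_neg, abs_of_pos hr0])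
    simpa [sub_eq_add_neg] using this
  have h1 := area_le_grad h (continuousOn_Lam h X zX) hG hGΩ
    (fun x hx => Lam_pos h hcv hr0 hmem (hGΩ hx))
  have h2 := hgrad Ω u h hcv X zX r0 r hr0 hr hbox G hG hGΩ
  refine h1.trans ?_
  gcongr

/-- Sum bound for the arm covector. -/
theorem abs_armv_le (k : ℕ) (i : Fin n) : |armv k i| ≤ 1 := by
  unfold armv
  split_ifs <;> simp

theorem armv_of_lt {k : ℕ} {i : Fin n} (h : i.val < k) : armv k i = 1 := by simp [armv, h]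
theorem armv_of_ge {k : ℕ} {i : Fin n} (h : k ≤ i.val) : armv k i = 0 := by
  simp [armv, not_lt.mpr h]

theorem sum_armv {k : ℕ} (hk : k ≤ n) : ∑ i : Fin n, armv k i = k := by
  unfold armv
  rw [Finset.sum_ite, Finset.sum_const_zero, add_zero, Finset.sum_const, Fin.card_filter_val_lt,
    min_eq_right hk]
  simp

theorem ones_apply_lt {k : ℕ} {i : Fin n} (h : i.val < k) : ones n k i = 1 := by
  simp [ones, h]
theorem ones_apply_ge {k : ℕ} {i : Fin n} (h : k ≤ i.val) : ones n k i = 0 := by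
  simp [ones, not_lt.mpr h]

/-- Lower bound for the arm part of `ν`. -/
theorem sum_armv_ge {k : ℕ} (hk : k ≤ n) {x : En n} {τ : ℝ}
    (hx : ∀ i : Fin n, i.val < k → -τ ≤ x i) : -(k * τ) ≤ ∑ i, armv k i * x i := by
  have h1 : ∑ i : Fin n, armv k i * (-τ) ≤ ∑ i, armv k i * x i := by
    apply Finset.sum_le_sum
    intro i _
    by_cases hi : i.val < k
    · rw [armv_of_lt hi]; linarith [hx i hi]
    · rw [armv_of_ge (not_lt.mp hi)]; simp
  rw [← Finset.sum_mul, sum_armv hk] at h1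
  linarith

/-- Constants. -/
noncomputable def TT (k : ℕ) : ℝ := 2 * k + 10

theorem base_mem {k : ℕ} {T τ c : ℝ} (hτ : 0 < τ) (hτT : τ ≤ T) (hc : 0 < c)
    (h : Appr k T τ c Ω u) : ((τ • ones n k, τ) : En n × ℝ) ∈ epi Ω u := by
  apply h.ball
  · exact le_rfl
  · exact hτT
  · intro i hi
    simp [ones_apply_lt hi, hτT]
  · intro j hj
    simp [ones_apply_ge hj]
    positivity

/-- Bounds and compactness of the caps used near the faces. -/
theorem cap_of_appr {k : ℕ} {T τ c s : ℝ} (hτ : 0 < τ) (hτ1 : τ ≤ 1)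
    (h : Appr k T τ c Ω u) (hc : 0 < c) {α : Fin n → ℝ} {β : ℝ}
    (hα1 : ∀ i : Fin n, i.val < k → 1 ≤ α i) (hα0 : ∀ i : Fin n, k ≤ i.val → α i = 0)
    (hβ : 1 ≤ β) (hA : τ * (∑ i, α i + β) ≤ k + 2) (hs : (k : ℝ) + 2 ≤ s) (hT : s + k + 3 < T) :
    (∀ x ∈ Ω, nu u α β 0 x ≤ s → (-τ ≤ u x ∧ u x ≤ T) ∧
      (∀ i : Fin n, i.val < k → -τ ≤ x i ∧ x i ≤ T) ∧
      ∀ j : Fin n, k ≤ j.val → |x j| ≤ T + 1) ∧
    IsCompact {x | x ∈ Ω ∧ nu u α β 0 x ≤ s} := by
  have hk0 : (0 : ℝ) ≤ k := by positivity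
  have hT1 : (1 : ℝ) < T := by linarith
  have hmem := base_mem hτ (by linarith) hc h
  have hν0 : ∑ i, α i * (τ • ones n k) i + β * τ ≤ s := by
    have e1 : ∀ i, α i * (τ • ones n k) i = τ * α i := by
      intro i
      by_cases hi : i.val < k
      · simp [ones_apply_lt hi]; ring
      · rw [hα0 i (not_lt.mp hi)]; simp
    simp only [e1, ← Finset.mul_sum]
    nlinarith
  have hTs : s + (k + 2) + 1 < T := by linarith
  constructor
  · intro x hx hν
    have := cap_bound (amc_convex_epi h.toAMC) h.box hτ.le hT1 hα1 hα0 hβ hA hTs hmem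
      hτ.le hτ1 (fun i hi => by simp [ones_apply_lt hi, hτ.le])
      (fun i hi => by simp [ones_apply_lt hi, hτ1]) hν0 (x, u x) ⟨hx, le_rfl⟩
      (by simp only [nu] at hν; simp only; linarith)
    exact this
  · exact isCompact_nu h.cl (amc_convex_epi h.toAMC) h.box hτ.le (by linarith) hT1 hα1 hα0 hβ
      hA hTs hmem hτ.le hτ1 (fun i hi => by simp [ones_apply_lt hi, hτ.le])
      (fun i hi => by simp [ones_apply_lt hi, hτ1]) hν0 (by linarith)

/-- Final algebra of a face estimate. -/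
theorem face_alg {k : ℕ} (hk : k ≤ n) {Cg c τ C' P W : ℝ} (hCg : 0 ≤ Cg) (hc : 0 < c)
    (hτ : 0 < τ) (hC' : 0 ≤ C') (hP : P = τ * ((1 / 2) ^ k * (c * τ) ^ (n - k)))
    (hW : W ≤ C' * τ) :
    ENNReal.ofReal (Cg / P) ^ (1 / ((n : ℝ) + 2)) *
      ENNReal.ofReal W ^ (((n : ℝ) + 1) / ((n : ℝ) + 2)) ≤
    ENNReal.ofReal ((Cg / ((1 / 2) ^ k * c ^ (n - k))) ^ (1 / ((n : ℝ) + 2)) *
      C' ^ (((n : ℝ) + 1) / ((n : ℝ) + 2)) * τ ^ ((k : ℝ) / ((n : ℝ) + 2))) := by
  have hn2 : (0 : ℝ) < (n : ℝ) + 2 := by positivity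
  have hA : 0 ≤ Cg / ((1 / 2) ^ k * c ^ (n - k)) := by positivity
  have e1 : Cg / P = (Cg / ((1 / 2) ^ k * c ^ (n - k))) / τ ^ (n - k + 1) := by
    rw [hP, div_div]
    congr 1
    rw [mul_pow]
    ring
  have hW' : ENNReal.ofReal W ≤ ENNReal.ofReal (C' * τ) := ENNReal.ofReal_le_ofReal hW
  calc ENNReal.ofReal (Cg / P) ^ (1 / ((n : ℝ) + 2)) *
      ENNReal.ofReal W ^ (((n : ℝ) + 1) / ((n : ℝ) + 2))
      ≤ ENNReal.ofReal (Cg / P) ^ (1 / ((n : ℝ) + 2)) *
        ENNReal.ofReal (C' * τ) ^ (((n : ℝ) + 1) / ((n : ℝ) + 2)) := by gcongr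
    _ = _ := by
      rw [e1, ENNReal.ofReal_rpow_of_nonneg (by positivity) (by positivity),
        ENNReal.ofReal_rpow_of_nonneg (by positivity) (by positivity),
        ← ENNReal.ofReal_mul (by positivity), pow_alg hk hA hC' hτ]

/-- The face `z = 0`. -/
theorem near_z (hlam : Stmt_lamInt n) {k : ℕ} (hk : k ≤ n) {τ c : ℝ} (hτ : 0 < τ)
    (hτ1 : τ ≤ 1 / 2) (h : Appr k (TT k) τ c Ω u) (hc : 0 < c) {Cg : ℝ} (hCg : 0 ≤ Cg)
    (hgrad : ∀ (Ω : Set (En n)) (u : En n → ℝ), SC Ω u → Convex ℝ Ω →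
      ∀ (X : En n) (zX r0 : ℝ) (r : Fin n → ℝ), 0 < r0 → (∀ i, 0 < r i) →
      (∀ (d : En n) (s : ℝ), (∀ i, |d i| ≤ r i) → |s| ≤ r0 → (X + d, zX + s) ∈ epi Ω u) →
      ∀ G : Set (En n), MeasurableSet G → G ⊆ Ω →
        ∫⁻ x in G, ENNReal.ofReal (dt u x * Lam u X zX x ^ (-((n : ℝ) + 1))) ≤
          ENNReal.ofReal (Cg / (r0 * ∏ i, r i))) :
    ∫⁻ x in {x | x ∈ Ω ∧ nu u (armv k) 1 0 x < k + 3 ∧ u x < τ},
      ENNReal.ofReal (dt u x ^ (1 / ((n : ℝ) + 2))) ≤
    ENNReal.ofReal ((Cg / ((1 / 2) ^ k * c ^ (n - k))) ^ (1 / ((n : ℝ) + 2)) *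
      ((2 * (TT k + 1)) ^ n * ((2 * k + 7) ^ 2 * (2 * k + 7) + n * (2 * k + 7) ^ 3 +
        (2 * k + 7) ^ 2 * (n * (TT k + 1)))) ^ (((n : ℝ) + 1) / ((n : ℝ) + 2)) *
        τ ^ ((k : ℝ) / ((n : ℝ) + 2))) := by
  have hsc : SC Ω u := h.toAMC.toAMLoc.toSC
  have hk0 : (0 : ℝ) ≤ k := by positivity
  have hn0 : (0 : ℝ) ≤ n := by positivity
  have hTv : TT k = 2 * (k : ℝ) + 10 := rfl
  set T := TT k with hTdef
  have hT0 : 0 < T := by rw [hTv]; positivity
  obtain ⟨β, hβ⟩ : ∃ β : ℝ, β = 1 + 1 / τ := ⟨_, rfl⟩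
  have hτi : 0 < 1 / τ := by positivity
  have hβ1 : 1 ≤ β := by linarith
  have hβ0 : 0 < β := by linarith
  have hτβ : τ * β = τ + 1 := by rw [hβ]; field_simp
  have hβτ : 1 / β ≤ τ := by
    rw [div_le_iff₀ hβ0]; linarith
  have hkτ : k * τ ≤ k := by nlinarith
  obtain ⟨hb, hcpt⟩ := cap_of_appr (s := (k : ℝ) + 5) hτ (by linarith) h hc (α := armv k) (β := β)
    (fun i hi => (armv_of_lt hi).ge) (fun i hi => armv_of_ge hi) hβ1
    (by rw [sum_armv hk, mul_add, hτβ]; nlinarith) (by linarith) (by rw [hTv]; linarith)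
  set G : Set (En n) := {x | x ∈ Ω ∧ nu u (armv k) 1 0 x < k + 3 ∧ u x < τ} with hG
  have hνeq : ∀ x, nu u (armv k) β 0 x = nu u (armv k) 1 0 x + u x / τ := by
    intro x; simp only [nu, hβ]; ring
  have hGm : MeasurableSet G := by
    have h1 := (continuousOn_nu hsc (armv k) 1 0).isOpen_inter_preimage h.op
      (isOpen_Iio (a := (k : ℝ) + 3))
    have h2 := (hsc.sm.continuousOn).isOpen_inter_preimage h.op (isOpen_Iio (a := τ))
    have : G = (Ω ∩ nu u (armv k) 1 0 ⁻¹' Set.Iio ((k : ℝ) + 3)) ∩ (Ω ∩ u ⁻¹' Set.Iio τ) := by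
      ext x; simp only [hG, Set.mem_ofPred_eq, Set.mem_inter_iff, Set.mem_preimage, Set.mem_Iio]
      tauto
    rw [this]
    exact (h1.inter h2).measurableSet
  have hGΩ : G ⊆ Ω := fun x hx => hx.1
  -- membership of the box
  have hbox : ∀ (d : En n) (s : ℝ), (∀ i, |d i| ≤ (if i.val < k then 1 / 2 else c * τ)) →
      |s| ≤ τ → (ones n k + d, 2 * τ + s) ∈ epi Ω u := by
    intro d s hd hs
    rw [abs_le] at hs
    apply h.ball
    · simp only; linarith
    · simp only; linarith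
    · intro i hi
      have := hd i
      rw [if_pos hi, abs_le] at this
      simp only [PiLp.add_apply, ones_apply_lt hi]
      constructor <;> linarith
    · intro j hj
      have := hd j
      rw [if_neg (not_lt.mpr hj)] at this
      simpa [ones_apply_ge hj] using this
  have hmemX : (ones n k, 2 * τ) ∈ epi Ω u := by
    have := hbox 0 0 (fun i => by
      simp only [PiLp.zero_apply, abs_zero]; split_ifs <;> positivity) (by simpa using hτ.le)
    simpa using this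
  -- lower bound of ν' on the cap
  have hlow : ∀ x ∈ Ω, nu u (armv k) β 0 x ≤ k + 5 →
      -((k : ℝ) + 2) ≤ nu u (armv k) β 0 x ∧ u x ≤ (2 * k + 5) * τ := by
    intro x hx hν
    obtain ⟨⟨h1, h2⟩, h3, -⟩ := hb x hx hν
    have h4 := sum_armv_ge hk (x := x) (τ := τ) (fun i hi => (h3 i hi).1)
    simp only [nu] at hν ⊢
    constructor
    · have : -(τ + 1) ≤ β * u x := by nlinarith
      linarith
    · by_contra hcon
      push Not at hcon
      have : β * ((2 * k + 5) * τ) ≤ β * u x := mul_le_mul_of_nonneg_left hcon.le hβ0.le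
      have e : β * ((2 * k + 5) * τ) = (2 * k + 5) * (τ * β) := by ring
      rw [e, hτβ] at this
      nlinarith
  have hW := lintegral_Lam_le hlam hsc h.cv (X := ones n k) (zX := 2 * τ) (α := armv k) (β := β)
    (γ := 0) (t := (k : ℝ) + 5) hβ0 hcpt hmemX (a := (2 * k + 7) * τ) (b := n * (T + 1))
    (C₁ := 2 * k + 7) (V := (2 * (T + 1)) ^ n)
    (by
      intro x hx hν
      have h1 := (hb x hx hν).1.1
      have h2 := (hlow x hx hν).2
      rw [abs_le]; constructor <;> nlinarith)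
    (by
      intro x hx hν
      obtain ⟨-, h3, -⟩ := hb x hx hν
      calc |∑ i, armv k i * (x i - ones n k i)| ≤ ∑ i, |armv k i * (x i - ones n k i)| :=
            Finset.abs_sum_le_sum_abs _ _
        _ ≤ ∑ _i : Fin n, (T + 1) := by
            apply Finset.sum_le_sum
            intro i _
            by_cases hi : i.val < k
            · rw [armv_of_lt hi, ones_apply_lt hi, one_mul, abs_le]
              have := h3 i hi
              constructor <;> linarith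
            · rw [armv_of_ge (not_lt.mp hi), zero_mul, abs_zero]; linarith
        _ = n * (T + 1) := by simp; ring)
    (by
      intro x hx hν
      have := (hlow x hx hν).1
      linarith)
    (by positivity) (by positivity) (by positivity)
    (by
      have e : (2 * (T + 1)) ^ n = ∏ _i : Fin n, ((T + 1) - (-(T + 1))) := by
        rw [Finset.prod_const, Finset.card_univ, Fintype.card_fin]; ring
      rw [e]
      apply volume_le_box (a := fun _ => -(T + 1)) (b := fun _ => T + 1)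
      · intro i; linarith
      · intro x hx i
        obtain ⟨-, h3, h4⟩ := hb x hx.1 hx.2.le
        by_cases hi : i.val < k
        · have := h3 i hi
          constructor <;> linarith
        · exact abs_le.mp (h4 i (not_lt.mp hi)))
    (by positivity) (G := G)
    (by
      intro x hx
      refine ⟨hx.1, ?_⟩
      rw [hνeq]
      have h1 : u x / τ < 1 := by rw [div_lt_one hτ]; exact hx.2.2
      linarith [hx.2.1])
  have harea := area_piece hgrad hsc h.cv (X := ones n k) (zX := 2 * τ) (r0 := τ)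
    (r := fun i => if i.val < k then 1 / 2 else c * τ) hτ
    (fun i => by split_ifs <;> positivity) hbox hGm hGΩ hW
  refine harea.trans (face_alg hk hCg hc hτ (by positivity) ?_ ?_)
  · rw [prod_radius hk]
  · have hV : 0 ≤ (2 * (T + 1)) ^ n := by positivity
    have e : (2 * (T + 1)) ^ n * ((2 * k + 7) ^ 2 * (2 * k + 7) + n * (2 * k + 7) ^ 3 +
        (2 * k + 7) ^ 2 * (n * (T + 1))) * τ =
      (2 * (T + 1)) ^ n * (((2 * k + 7) ^ 2 * ((2 * k + 7) * τ) + n * τ * (2 * k + 7) ^ 3 +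
        τ * ((2 * k + 7) ^ 2 * (n * (T + 1))))) := by ring
    rw [e]
    apply mul_le_mul_of_nonneg_left _ hV
    have f1 : (n : ℝ) / (3 * β) ≤ n * τ := by
      have : (n : ℝ) / (3 * β) = n * (1 / β) / 3 := by field_simp
      rw [this]
      have h5 : (n : ℝ) * (1 / β) ≤ n * τ := mul_le_mul_of_nonneg_left hβτ hn0
      have h6 : 0 ≤ (n : ℝ) * (1 / β) := by positivity
      linarith
    have f2 : (n : ℝ) / (3 * β) * (2 * k + 7) ^ 3 ≤ n * τ * (2 * k + 7) ^ 3 :=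
      mul_le_mul_of_nonneg_right f1 (by positivity)
    have f3 : 1 / β * ((2 * k + 7) ^ 2 * (n * (T + 1))) ≤ τ * ((2 * k + 7) ^ 2 * (n * (T + 1))) :=
      mul_le_mul_of_nonneg_right hβτ (by positivity)
    linarith

end Vale.Agent.P252.H889
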