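import Vale.Agent.P252.H889.Near

/-!
# The affine area near the faces `x_l = 0` of a wedge is small
-/

open scoped ContDiff Topology ENNReal
open Filter MeasureTheory

namespace Vale.Agent.P252.H889
open Vale.Agent.P252.R

variable {n : ℕ} {Ω : Set (En n)} {u : En n → ℝ}

/-- The vector `ones` with the `l`-th entry replaced by `v`. -/
noncomputable def onesU (n k : ℕ) (l : Fin n) (v : ℝ) : En n :=
  WithLp.toLp 2 fun i => if i = l then v else if i.val < k then 1 else 0

theorem onesU_self {k : ℕ} {l : Fin n} {v : ℝ} : onesU n k l v l = v := by simp [onesU]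
theorem onesU_lt {k : ℕ} {l : Fin n} {v : ℝ} {i : Fin n} (h : i ≠ l) (hi : i.val < k) :
    onesU n k l v i = 1 := by simp [onesU, h, hi]
theorem onesU_ge {k : ℕ} {l : Fin n} (hl : l.val < k) {v : ℝ} {i : Fin n} (hi : k ≤ i.val) :
    onesU n k l v i = 0 := by
  have : i ≠ l := fun h => by rw [h] at hi; omega
  simp [onesU, this, not_lt.mpr hi]

/-- The face `x_l = 0`. -/
theorem near_x (hlam : Stmt_lamInt n) {k : ℕ} (hk : k ≤ n) {l : Fin n} (hl : l.val < k)
    {τ c : ℝ} (hτ : 0 < τ)
    (hτ1 : τ ≤ 1 / 2) (h : Appr k (TT k) τ c Ω u) (hc : 0 < c) {Cg : ℝ} (hCg : 0 ≤ Cg)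
    (hgrad : ∀ (Ω : Set (En n)) (u : En n → ℝ), SC Ω u → Convex ℝ Ω →
      ∀ (X : En n) (zX r0 : ℝ) (r : Fin n → ℝ), 0 < r0 → (∀ i, 0 < r i) →
      (∀ (d : En n) (s : ℝ), (∀ i, |d i| ≤ r i) → |s| ≤ r0 → (X + d, zX + s) ∈ epi Ω u) →
      ∀ G : Set (En n), MeasurableSet G → G ⊆ Ω →
        ∫⁻ x in G, ENNReal.ofReal (dt u x * Lam u X zX x ^ (-((n : ℝ) + 1))) ≤
          ENNReal.ofReal (Cg / (r0 * ∏ i, r i))) :
    ∫⁻ x in {x | x ∈ Ω ∧ nu u (armv k) 1 0 x < k + 3 ∧ x l < τ},
      ENNReal.ofReal (dt u x ^ (1 / ((n : ℝ) + 2))) ≤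
    ENNReal.ofReal ((Cg / ((1 / 2) ^ k * c ^ (n - k))) ^ (1 / ((n : ℝ) + 2)) *
      ((2 * k + 7) * (2 * (TT k + 1)) ^ n * ((2 * k + 7) ^ 2 * (TT k + 1) +
        n * (2 * k + 7) ^ 3 +
        (2 * k + 7) ^ 2 * (n * (TT k + 1) + (2 * k + 7)))) ^
        (((n : ℝ) + 1) / ((n : ℝ) + 2)) *
        τ ^ ((k : ℝ) / ((n : ℝ) + 2))) := by
  have hsc : SC Ω u := h.toAMC.toAMLoc.toSC
  have hk0 : (0 : ℝ) ≤ k := by positivity
  have hn0 : (0 : ℝ) ≤ n := by positivity
  have hTv : TT k = 2 * (k : ℝ) + 10 := rfl
  set T := TT k with hTdef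
  have hT0 : 0 < T := by rw [hTv]; positivity
  obtain ⟨α, hα⟩ : ∃ α : Fin n → ℝ, α = fun i => armv k i + (if i = l then 1 / τ else 0) :=
    ⟨_, rfl⟩
  have hτi : 0 < 1 / τ := by positivity
  have hkτ : k * τ ≤ k := by nlinarith
  have hα1 : ∀ i : Fin n, i.val < k → 1 ≤ α i := by
    intro i hi
    simp only [hα, armv_of_lt hi]
    split_ifs <;> linarith
  have hα0 : ∀ i : Fin n, k ≤ i.val → α i = 0 := by
    intro i hi
    have : i ≠ l := fun h => by rw [h] at hi; omega
    simp only [hα, armv_of_ge hi, if_neg this, add_zero]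
  have hαsum : ∀ x : Fin n → ℝ, ∑ i, α i * x i = ∑ i, armv k i * x i + x l / τ := by
    intro x
    simp only [hα, add_mul, Finset.sum_add_distrib]
    congr 1
    simp only [ite_mul, zero_mul, Finset.sum_ite_eq', Finset.mem_univ, if_true]
    ring
  have hαs : ∑ i, α i = k + 1 / τ := by
    have := hαsum (fun _ => 1)
    simp only [mul_one] at this
    rw [this, sum_armv hk]
  obtain ⟨hb, hcpt⟩ := cap_of_appr (s := (k : ℝ) + 5) hτ (by linarith) h hc (α := α) (β := 1)
    hα1 hα0 le_rfl
    (by
      rw [hαs]
      have : τ * (k + 1 / τ + 1) = k * τ + 1 + τ := by field_simp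
      rw [this]; linarith) (by linarith) (by rw [hTv]; linarith)
  set G : Set (En n) := {x | x ∈ Ω ∧ nu u (armv k) 1 0 x < k + 3 ∧ x l < τ} with hG
  have hνeq : ∀ x, nu u α 1 0 x = nu u (armv k) 1 0 x + x l / τ := by
    intro x; simp only [nu, hαsum]; ring
  have hGm : MeasurableSet G := by
    have h1 := (continuousOn_nu hsc (armv k) 1 0).isOpen_inter_preimage h.op
      (isOpen_Iio (a := (k : ℝ) + 3))
    have hcx : Continuous fun x : En n => x l := by fun_prop
    have h2 : IsOpen ((fun x : En n => x l) ⁻¹' Set.Iio τ) := isOpen_Iio.preimage hcx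
    have : G = (Ω ∩ nu u (armv k) 1 0 ⁻¹' Set.Iio ((k : ℝ) + 3)) ∩
        ((fun x : En n => x l) ⁻¹' Set.Iio τ) := by
      ext x; simp only [hG, Set.mem_ofPred_eq, Set.mem_inter_iff, Set.mem_preimage, Set.mem_Iio]
      tauto
    rw [this]
    exact (h1.inter h2).measurableSet
  have hGΩ : G ⊆ Ω := fun x hx => hx.1
  -- membership of the box
  have hbox : ∀ (d : En n) (s : ℝ), (∀ i, |d i| ≤ (if i = l then τ else if i.val < k then 1 / 2
      else c * τ)) →
      |s| ≤ 1 / 2 → (onesU n k l (2 * τ) + d, 1 + s) ∈ epi Ω u := by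
    intro d s hd hs
    rw [abs_le] at hs
    apply h.ball
    · simp only; linarith
    · simp only; linarith
    · intro i hi
      have := hd i
      by_cases hil : i = l
      · subst hil
        rw [if_pos rfl, abs_le] at this
        simp only [PiLp.add_apply, onesU_self]
        constructor <;> linarith
      · rw [if_neg hil, if_pos hi, abs_le] at this
        simp only [PiLp.add_apply, onesU_lt hil hi]
        constructor <;> linarith
    · intro j hj
      have hjl : j ≠ l := fun h => by rw [h] at hj; omega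
      have := hd j
      rw [if_neg hjl, if_neg (not_lt.mpr hj)] at this
      simpa [onesU_ge hl hj] using this
  have hmemX : (onesU n k l (2 * τ), (1 : ℝ)) ∈ epi Ω u := by
    have := hbox 0 0 (fun i => by
      simp only [PiLp.zero_apply, abs_zero]; split_ifs <;> positivity) (by simp)
    simpa using this
  -- lower bound of ν' on the cap
  have hlow : ∀ x ∈ Ω, nu u α 1 0 x ≤ k + 5 →
      -((k : ℝ) + 2) ≤ nu u α 1 0 x ∧ x l ≤ (2 * k + 6) * τ := by
    intro x hx hν
    obtain ⟨⟨h1, h2⟩, h3, -⟩ := hb x hx hν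
    have h4 := sum_armv_ge hk (x := x) (τ := τ) (fun i hi => (h3 i hi).1)
    have h5 : -1 ≤ x l / τ := by
      rw [le_div_iff₀ hτ]; linarith [(h3 l hl).1]
    rw [hνeq] at hν ⊢
    simp only [nu] at hν ⊢
    constructor
    · linarith
    · have h6 : x l / τ ≤ 2 * k + 6 := by linarith
      rwa [div_le_iff₀ hτ] at h6
  have hW := lintegral_Lam_le hlam hsc h.cv (X := onesU n k l (2 * τ)) (zX := 1) (α := α) (β := 1)
    (γ := 0) (t := (k : ℝ) + 5) one_pos hcpt hmemX (a := T + 1) (b := n * (T + 1) + (2 * k + 7))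
    (C₁ := 2 * k + 7) (V := ((2 * k + 7) * τ) * (2 * (T + 1)) ^ n)
    (by
      intro x hx hν
      have h1 := (hb x hx hν).1
      rw [abs_le]; constructor <;> linarith)
    (by
      intro x hx hν
      obtain ⟨-, h3, -⟩ := hb x hx hν
      have hx2 := (hlow x hx hν).2
      rw [hαsum (fun i => x i - onesU n k l (2 * τ) i)]
      have hsum : |∑ i, armv k i * (x i - onesU n k l (2 * τ) i)| ≤ n * (T + 1) := by
        calc |∑ i, armv k i * (x i - onesU n k l (2 * τ) i)|
            ≤ ∑ i, |armv k i * (x i - onesU n k l (2 * τ) i)| := Finset.abs_sum_le_sum_abs _ _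
          _ ≤ ∑ _i : Fin n, (T + 1) := by
              apply Finset.sum_le_sum
              intro i _
              by_cases hi : i.val < k
              · have := h3 i hi
                by_cases hil : i = l
                · subst hil
                  rw [armv_of_lt hi, onesU_self, one_mul, abs_le]
                  constructor <;> linarith
                · rw [armv_of_lt hi, onesU_lt hil hi, one_mul, abs_le]
                  constructor <;> linarith
              · rw [armv_of_ge (not_lt.mp hi), zero_mul, abs_zero]; linarith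
          _ = n * (T + 1) := by simp; ring
      have hl2 : |(x l - onesU n k l (2 * τ) l) / τ| ≤ 2 * k + 7 := by
        rw [onesU_self, abs_div, abs_of_pos hτ, div_le_iff₀ hτ, abs_le]
        have := (h3 l hl).1
        constructor <;> nlinarith
      exact (abs_add_le _ _).trans (add_le_add hsum hl2))
    (by
      intro x hx hν
      have := (hlow x hx hν).1
      linarith)
    (by positivity) (by positivity) (by positivity)
    (by
      have hbx : volume {x | x ∈ Ω ∧ nu u α 1 0 x < k + 5} ≤
          ENNReal.ofReal (∏ i, ((if i = l then (2 * k + 6) * τ else T + 1) -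
            (if i = l then -τ else -(T + 1)))) := by
        apply volume_le_box (a := fun i => if i = l then -τ else -(T + 1))
          (b := fun i => if i = l then (2 * k + 6) * τ else T + 1)
        · intro i
          split_ifs
          · nlinarith
          · linarith
        · intro x hx i
          obtain ⟨-, h3, h4⟩ := hb x hx.1 hx.2.le
          have hx2 := (hlow x hx.1 hx.2.le).2
          by_cases hil : i = l
          · subst hil
            rw [if_pos rfl, if_pos rfl]
            exact ⟨(h3 _ hl).1, hx2⟩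
          · rw [if_neg hil, if_neg hil]
            by_cases hi : i.val < k
            · have := h3 i hi
              constructor <;> linarith
            · exact abs_le.mp (h4 i (not_lt.mp hi))
      refine hbx.trans (ENNReal.ofReal_le_ofReal ?_)
      calc ∏ i, ((if i = l then (2 * k + 6) * τ else T + 1) - (if i = l then -τ else -(T + 1)))
          ≤ ∏ i : Fin n, ((if i = l then (2 * k + 7) * τ else 1) * (2 * (T + 1))) := by
            apply Finset.prod_le_prod
            · intro i _
              split_ifs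
              · nlinarith
              · linarith
            · intro i _
              split_ifs
              · have : (0 : ℝ) ≤ (2 * k + 7) * τ := by positivity
                nlinarith
              · linarith
        _ = ((2 * k + 7) * τ) * (2 * (T + 1)) ^ n := by
            rw [Finset.prod_mul_distrib, Finset.prod_ite_eq' Finset.univ l, if_pos (Finset.mem_univ _),
              Finset.prod_const, Finset.card_univ, Fintype.card_fin])
    (by positivity) (G := G)
    (by
      intro x hx
      refine ⟨hx.1, ?_⟩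
      rw [hνeq]
      have h1 : x l / τ < 1 := by rw [div_lt_one hτ]; exact hx.2.2
      linarith [hx.2.1])
  have harea := area_piece hgrad hsc h.cv (X := onesU n k l (2 * τ)) (zX := 1) (r0 := 1 / 2)
    (r := fun i => if i = l then τ else if i.val < k then 1 / 2 else c * τ) (by norm_num)
    (fun i => by split_ifs <;> positivity) hbox hGm hGΩ hW
  refine harea.trans (face_alg hk hCg hc hτ (by positivity) ?_ ?_)
  · have e1 : ∀ i : Fin n, (if i = l then τ else if i.val < k then 1 / 2 else c * τ) =
        (if i = l then 2 * τ else 1) * (if i.val < k then 1 / 2 else c * τ) := by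
      intro i
      by_cases hil : i = l
      · subst hil
        rw [if_pos rfl, if_pos rfl, if_pos hl]; ring
      · rw [if_neg hil, if_neg hil, one_mul]
    simp only [e1]
    rw [Finset.prod_mul_distrib, prod_radius hk, Finset.prod_ite_eq' Finset.univ l,
      if_pos (Finset.mem_univ _)]
    ring
  · have e : (2 * k + 7) * (2 * (T + 1)) ^ n * ((2 * k + 7) ^ 2 * (T + 1) + n * (2 * k + 7) ^ 3 +
        (2 * k + 7) ^ 2 * (n * (T + 1) + (2 * k + 7))) * τ =
      (2 * k + 7) * τ * (2 * (T + 1)) ^ n * (((2 * k + 7) ^ 2 * (T + 1) + n * (2 * k + 7) ^ 3 +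
        ((2 * k + 7) ^ 2 * (n * (T + 1) + (2 * k + 7))))) := by ring
    rw [e]
    apply mul_le_mul_of_nonneg_left _ (by positivity)
    have f1 : (n : ℝ) / (3 * 1) ≤ n := by
      rw [mul_one]; linarith
    have f2 : (n : ℝ) / (3 * 1) * (2 * k + 7) ^ 3 ≤ n * (2 * k + 7) ^ 3 :=
      mul_le_mul_of_nonneg_right f1 (by positivity)
    simp only [div_one, one_mul]
    simp only [mul_one] at f2 ⊢
    linarith

end Vale.Agent.P252.H889
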